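import Vale.Agent.P150.TwoSpin

/-! Weights on the discrete cube and single site averages. -/

namespace Vale.Agent.P150

open Finset Function

noncomputable section

variable {ι : Type} [Fintype ι] [DecidableEq ι]

/-- Weighted sum. -/
def Ex (W f : (ι → Bool) → ℝ) : ℝ := ∑ x, W x * f x

/-- Independence of the coordinate `i`. -/
def Ind (i : ι) (g : (ι → Bool) → ℝ) : Prop := ∀ x b, g (update x i b) = g x

/-- Conditional expectation given the other coordinates. -/
def Qw (W : (ι → Bool) → ℝ) (i : ι) (f : (ι → Bool) → ℝ) (x : ι → Bool) : ℝ :=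
  (W (update x i true) * f (update x i true) + W (update x i false) * f (update x i false)) /
    (W (update x i true) + W (update x i false))

/-- Conditional mean of the spin `i`. -/
def mw (W : (ι → Bool) → ℝ) (i : ι) (x : ι → Bool) : ℝ :=
  (W (update x i true) - W (update x i false)) / (W (update x i true) + W (update x i false))

/-- Discrete derivative. -/
def dd (i : ι) (f : (ι → Bool) → ℝ) (x : ι → Bool) : ℝ :=
  (f (update x i true) - f (update x i false)) / 2

/-- The local fluctuation. -/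
def Dw (W : (ι → Bool) → ℝ) (i : ι) (f : (ι → Bool) → ℝ) (x : ι → Bool) : ℝ := f x - Qw W i f x

variable {W f g : (ι → Bool) → ℝ} {i : ι}

lemma sum_split (i : ι) (G : (ι → Bool) → ℝ) :
    2 * ∑ x, G x = ∑ x, (G (update x i true) + G (update x i false)) := by
  have h : Involutive fun x : ι → Bool => update x i (!x i) := fun x => by simp
  rw [two_mul]
  nth_rewrite 2 [← Equiv.sum_comp h.toPerm G]
  rw [← sum_add_distrib]
  refine sum_congr rfl fun x _ => ?_
  have e : G x = G (update x i (x i)) := by rw [update_eq_self]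
  rw [e, Involutive.coe_toPerm]
  cases x i
  · exact add_comm _ _
  · rfl

lemma Ex_add (W f g : (ι → Bool) → ℝ) : Ex W (fun x => f x + g x) = Ex W f + Ex W g := by
  simp only [Ex, mul_add, sum_add_distrib]

lemma Ex_sub (W f g : (ι → Bool) → ℝ) : Ex W (fun x => f x - g x) = Ex W f - Ex W g := by
  simp only [Ex, mul_sub, sum_sub_distrib]

lemma Ex_mul (W : (ι → Bool) → ℝ) (c : ℝ) (f : (ι → Bool) → ℝ) :
    Ex W (fun x => c * f x) = c * Ex W f := by
  simp only [Ex, mul_sum, mul_left_comm]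

lemma Ex_sum {κ : Type*} (W : (ι → Bool) → ℝ) (s : Finset κ) (f : κ → (ι → Bool) → ℝ) :
    Ex W (fun x => ∑ k ∈ s, f k x) = ∑ k ∈ s, Ex W (f k) := by
  simp only [Ex, mul_sum]
  exact sum_comm

lemma Ex_const (W : (ι → Bool) → ℝ) (c : ℝ) : Ex W (fun _ => c) = c * ∑ x, W x := by
  simp only [Ex, mul_sum, mul_comm]

lemma Ex_congr (h : ∀ x, f x = g x) : Ex W f = Ex W g := by rw [funext h]

lemma Ex_mono (hW : ∀ x, 0 < W x) (h : ∀ x, f x ≤ g x) : Ex W f ≤ Ex W g :=
  sum_le_sum fun x _ => mul_le_mul_of_nonneg_left (h x) (hW x).le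

lemma Ex_nonneg (hW : ∀ x, 0 < W x) (h : ∀ x, 0 ≤ f x) : 0 ≤ Ex W f :=
  sum_nonneg fun x _ => mul_nonneg (hW x).le (h x)

lemma Ex_pos (hW : ∀ x, 0 < W x) (h : ∀ x, 0 < f x) : 0 < Ex W f :=
  sum_pos (fun x _ => mul_pos (hW x) (h x)) univ_nonempty

lemma sumW_pos (hW : ∀ x, 0 < W x) : 0 < ∑ x, W x := sum_pos (fun x _ => hW x) univ_nonempty

omit [Fintype ι] in
lemma ind_Qw (W : (ι → Bool) → ℝ) (i : ι) (f : (ι → Bool) → ℝ) : Ind i (Qw W i f) :=
  fun x b => by simp only [Qw, update_idem]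

omit [Fintype ι] in
lemma ind_mw (W : (ι → Bool) → ℝ) (i : ι) : Ind i (mw W i) :=
  fun x b => by simp only [mw, update_idem]

omit [Fintype ι] in
lemma ind_dd (i : ι) (f : (ι → Bool) → ℝ) : Ind i (dd i f) :=
  fun x b => by simp only [dd, update_idem]

omit [Fintype ι] in
lemma Qw_pos (hW : ∀ x, 0 < W x) (hf : ∀ x, 0 < f x) (x : ι → Bool) : 0 < Qw W i f x :=
  div_pos (add_pos (mul_pos (hW _) (hf _)) (mul_pos (hW _) (hf _))) (add_pos (hW _) (hW _))

omit [Fintype ι] in
lemma Qw_of_ind (hW : ∀ x, 0 < W x) (hg : Ind i g) (x : ι → Bool) : Qw W i g x = g x := by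
  rw [Qw, hg, hg, ← add_mul, mul_div_cancel_left₀ _ (add_pos (hW _) (hW _)).ne']

lemma Ex_mul_Qw (hW : ∀ x, 0 < W x) (hg : Ind i g) (f : (ι → Bool) → ℝ) :
    Ex W (fun x => g x * Qw W i f x) = Ex W fun x => g x * f x := by
  refine mul_left_cancel₀ two_ne_zero ?_
  rw [Ex, Ex, sum_split i, sum_split i]
  refine sum_congr rfl fun x _ => ?_
  have := (add_pos (hW (update x i true)) (hW (update x i false))).ne'
  rw [hg, hg, ind_Qw, ind_Qw, Qw]
  field_simp

lemma Ex_Qw (hW : ∀ x, 0 < W x) (f : (ι → Bool) → ℝ) : Ex W (Qw W i f) = Ex W f := by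
  simpa using Ex_mul_Qw hW (g := fun _ => 1) (i := i) (fun _ _ => rfl) f

lemma Ex_ind_Dw (hW : ∀ x, 0 < W x) (hg : Ind i g) (f : (ι → Bool) → ℝ) :
    Ex W (fun x => g x * Dw W i f x) = 0 := by
  simp only [Dw, mul_sub, Ex_sub, Ex_mul_Qw hW hg, sub_self]

lemma Ex_mul_Dw (hW : ∀ x, 0 < W x) (f g : (ι → Bool) → ℝ) :
    Ex W (fun x => g x * Dw W i f x) = Ex W fun x => Dw W i g x * Dw W i f x := by
  have := Ex_ind_Dw hW (ind_Qw W i g) f
  simp only [Dw, sub_mul, Ex_sub] at this ⊢
  linarith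

omit [Fintype ι] in
lemma abs_mw_le (hW : ∀ x, 0 < W x) (x : ι → Bool) : |mw W i x| ≤ 1 := by
  have h1 := hW (update x i true)
  have h2 := hW (update x i false)
  rw [mw, abs_div, abs_of_pos (add_pos h1 h2), div_le_one (add_pos h1 h2), abs_le]
  constructor <;> linarith

omit [Fintype ι] in
lemma mw_sq_le (hW : ∀ x, 0 < W x) (x : ι → Bool) : mw W i x ^ 2 ≤ 1 := by
  rw [← sq_abs]; exact pow_le_one₀ (abs_nonneg _) (abs_mw_le hW x)

omit [Fintype ι] in
lemma Dw_eq (hW : ∀ x, 0 < W x) (f : (ι → Bool) → ℝ) (x : ι → Bool) :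
    Dw W i f x = (spin (x i) - mw W i x) * dd i f x := by
  have := (add_pos (hW (update x i true)) (hW (update x i false))).ne'
  have e : f x = f (update x i (x i)) := by rw [update_eq_self]
  rw [Dw, e, Qw, mw, dd]
  cases x i <;> simp only [spin_true, spin_false] <;> field_simp <;> ring

lemma Ex_Dw_sq (hW : ∀ x, 0 < W x) (f : (ι → Bool) → ℝ) :
    Ex W (fun x => Dw W i f x * Dw W i f x) = Ex W fun x => (1 - mw W i x ^ 2) * dd i f x ^ 2 := by
  refine mul_left_cancel₀ two_ne_zero ?_
  rw [Ex, Ex, sum_split i, sum_split i]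
  refine sum_congr rfl fun x _ => ?_
  have := (add_pos (hW (update x i true)) (hW (update x i false))).ne'
  simp only [Dw_eq hW, ind_mw W i x, ind_dd i f x, update_self, spin_true, spin_false]
  rw [mw]
  field_simp
  ring

omit [Fintype ι] in
lemma const_of_ind [Finite ι] (h : ∀ i, Ind i f) (x y : ι → Bool) : f x = f y := by
  have := Fintype.ofFinite ι
  have key : ∀ s : Finset ι, f (s.piecewise y x) = f x := by
    intro s
    induction s using Finset.induction_on with
    | empty => simp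
    | insert a s _ ih => rw [piecewise_insert, h, ih]
  simpa using (key univ).symm

/-- The Dirichlet form. -/
def Dir (W f : (ι → Bool) → ℝ) : ℝ := ∑ i, Ex W fun x => Dw W i f x * Dw W i f x

lemma Dir_nonneg (hW : ∀ x, 0 < W x) (f : (ι → Bool) → ℝ) : 0 ≤ Dir W f :=
  sum_nonneg fun _ _ => Ex_nonneg hW fun _ => mul_self_nonneg _

/-- The integrated curvature criterion implies the Poincare inequality. -/
theorem poincare_of_bochner (hW : ∀ x, 0 < W x) {κ : ℝ} (hκ : 0 < κ)
    (h : ∀ f, κ * Dir W f ≤ Ex W fun x => (∑ i, Dw W i f x) ^ 2) (hg : Ex W g = 0) :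
    κ * Ex W (fun x => g x ^ 2) ≤ Dir W g := by
  let T : ((ι → Bool) → ℝ) →ₗ[ℝ] ((ι → Bool) → ℝ) :=
    { toFun := fun f x => ∑ i, Dw W i f x + Ex W f
      map_add' := fun f f' => funext fun x => by
        have := Ex_add W f f'
        simp only [Pi.add_apply, Dw, Qw, mul_add, add_div, sum_add_distrib, sum_sub_distrib] at this ⊢
        rw [show Ex W (f + f') = _ from this]
        ring
      map_smul' := fun c f => funext fun x => by
        have := Ex_mul W c f
        simp only [Pi.smul_apply, smul_eq_mul, Dw, Qw, RingHom.id_apply, mul_add, mul_sum, mul_sub]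
        rw [show Ex W (c • f) = _ from this]
        refine congrArg (· + _) (sum_congr rfl fun i _ => ?_)
        ring }
  have hZ := sumW_pos hW
  have mean : ∀ f, Ex W (T f) = Ex W f * ∑ x, W x := fun f => by
    have h0 : ∀ i, Ex W (Dw W i f) = 0 := fun i => by
      simpa using Ex_ind_Dw hW (g := fun _ => 1) (i := i) (fun _ _ => rfl) f
    show Ex W (fun x => ∑ i, Dw W i f x + Ex W f) = _
    rw [Ex_add, Ex_sum, Ex_const, sum_eq_zero fun i _ => h0 i, zero_add]
  have form : ∀ f g, Ex W (fun x => g x * ∑ i, Dw W i f x) =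
      ∑ i, Ex W fun x => Dw W i g x * Dw W i f x := fun f g => by
    simp only [mul_sum, Ex_sum]
    exact sum_congr rfl fun i _ => Ex_mul_Dw hW f g
  have inj : Injective T := by
    refine (injective_iff_map_eq_zero T).2 fun f hf => ?_
    have h1 : Ex W f = 0 := by
      have := mean f
      rw [hf] at this
      simpa [Ex, hZ.ne'] using this.symm
    have h2 : ∀ x, ∑ i, Dw W i f x = 0 := fun x => by simpa [T, h1] using congrFun hf x
    have h3 : Dir W f = 0 := by
      rw [Dir, ← form]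
      simp [h2, Ex]
    have h4 : ∀ i x, Dw W i f x = 0 := fun i x => by
      have a1 := (sum_eq_zero_iff_of_nonneg fun i _ => Ex_nonneg hW fun _ => mul_self_nonneg _).1 h3 i
        (mem_univ _)
      have a2 := (sum_eq_zero_iff_of_nonneg fun x _ =>
        mul_nonneg (hW x).le (mul_self_nonneg _)).1 a1 x (mem_univ _)
      simpa [(hW x).ne'] using a2
    have h5 : ∀ i, Ind i f := fun i x b => by
      rw [sub_eq_zero.1 (h4 i _), ind_Qw, ← sub_eq_zero.1 (h4 i _)]
    funext x
    have h6 : Ex W f = f x * ∑ y, W y := by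
      rw [← Ex_const]
      exact Ex_congr fun y => const_of_ind h5 y x
    simpa [h1, hZ.ne'] using h6.symm
  obtain ⟨f, rfl⟩ := LinearMap.injective_iff_surjective.1 inj g
  have h1 : Ex W f = 0 := by simpa [hg, hZ.ne'] using (mean f).symm
  have h2 : ∀ x, T f x = ∑ i, Dw W i f x := fun x => by simp [T, h1]
  have h3 : Ex W (fun x => T f x ^ 2) = ∑ i, Ex W fun x => Dw W i (T f) x * Dw W i f x := by
    rw [← form]
    exact Ex_congr fun x => by rw [sq, ← h2]
  have h4 := h f
  simp only [← h2] at h4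
  have h5 : 2 * κ * ∑ i, Ex W (fun x => Dw W i (T f) x * Dw W i f x) ≤
      Dir W (T f) + κ ^ 2 * Dir W f := by
    rw [Dir, Dir, mul_sum, mul_sum, ← sum_add_distrib]
    refine sum_le_sum fun i _ => ?_
    rw [← Ex_mul, ← Ex_mul, ← Ex_add]
    exact Ex_mono hW fun x => by nlinarith [sq_nonneg (Dw W i (T f) x - κ * Dw W i f x)]
  rw [← h3] at h5
  nlinarith

end

end Vale.Agent.P150
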