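import Vale.Agent.P150.Basic

/-! The Poincare inequality for Ising weights. -/

set_option linter.all false

namespace Vale.Agent.P150

open Finset Function Real

noncomputable section

variable {ι : Type} [Fintype ι] [DecidableEq ι]

/-- The energy of an Ising model. -/
def en (J : ι → ι → ℝ) (h : ι → ℝ) (x : ι → Bool) : ℝ :=
  (∑ i, ∑ j, J i j * spin (x i) * spin (x j)) / 2 + ∑ i, h i * spin (x i)

/-- The Ising weight. -/
def isw (J : ι → ι → ℝ) (h : ι → ℝ) (x : ι → Bool) : ℝ := exp (en J h x)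

/-- The hypotheses on the interaction matrix. -/
structure Good (J : ι → ι → ℝ) (η : ℝ) : Prop where
  pos : 0 < η
  le : η ≤ 1
  symm : ∀ i j, J i j = J j i
  diag : ∀ i, J i i = 0
  quad : ∀ u : ι → ℝ, ∑ i, ∑ j, J i j * u i * u j ≤ (1 - η) * ∑ i, u i ^ 2
  row : ∀ i, ∑ j, J i j ^ 2 ≤ 1 / 2
  small : ∀ i j, |J i j| ≤ η / 50000

variable {J : ι → ι → ℝ} {h : ι → ℝ} {η : ℝ}

omit [DecidableEq ι] in
lemma isw_pos (J : ι → ι → ℝ) (h : ι → ℝ) (x : ι → Bool) : 0 < isw J h x := exp_pos _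

omit [DecidableEq ι] in
lemma Good.smul (hJ : Good J η) {s : ℝ} (h0 : 0 ≤ s) (h1 : s ≤ 1) :
    Good (fun i j => s * J i j) η where
  pos := hJ.pos
  le := hJ.le
  symm i j := by rw [hJ.symm]
  diag i := by rw [hJ.diag, mul_zero]
  quad u := by
    have h2 : 0 ≤ (1 - η) * ∑ i, u i ^ 2 :=
      mul_nonneg (sub_nonneg.2 hJ.le) (sum_nonneg fun _ _ => sq_nonneg _)
    simp only [mul_assoc, ← mul_sum]
    have h3 := hJ.quad u
    simp only [mul_assoc] at h3
    exact (mul_le_mul_of_nonneg_left h3 h0).trans (mul_le_of_le_one_left h2 h1)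
  row i := by
    simp only [mul_pow, ← mul_sum]
    exact (mul_le_of_le_one_left (sum_nonneg fun _ _ => sq_nonneg _) (pow_le_one₀ h0 h1)).trans
      (hJ.row i)
  small i j := by
    rw [abs_mul, abs_of_nonneg h0]
    exact (mul_le_of_le_one_left (abs_nonneg _) h1).trans (hJ.small i j)

lemma en_update (hs : ∀ i j, J i j = J j i) (hd : ∀ i, J i i = 0) (h : ι → ℝ) (x : ι → Bool)
    (i : ι) : ∃ c, ∀ b, en J h (update x i b) = c + spin b * (h i + ∑ j, J i j * spin (x j)) := by
  let σ : ι → ℝ := update (fun k => spin (x k)) i 0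
  refine ⟨(∑ k, ∑ l, J k l * σ k * σ l) / 2 + ∑ k, h k * σ k, fun b => ?_⟩
  have e : ∀ k, spin (update x i b k) = σ k + if k = i then spin b else 0 := fun k => by
    by_cases hk : k = i
    · simp [σ, hk]
    · simp [σ, hk]
  have e2 : ∑ j, J i j * spin (x j) = ∑ j, J i j * σ j := sum_congr rfl fun k _ => by
    by_cases hk : k = i
    · simp [hk, hd]
    · simp [σ, hk]
  have e3 : ∑ k, J k i * σ k * spin b = spin b * ∑ j, J i j * σ j := by
    rw [mul_sum]
    exact sum_congr rfl fun k _ => by rw [hs]; ring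
  have e4 : ∑ k, J i k * spin b * σ k = spin b * ∑ j, J i j * σ j := by
    rw [mul_sum]
    exact sum_congr rfl fun k _ => by ring
  simp only [en, e, e2, mul_add, add_mul, sum_add_distrib, mul_ite, ite_mul, mul_zero, zero_mul,
    sum_ite_eq', mem_univ, if_true, sum_ite_irrel, sum_const_zero, hd, e3, e4]
  ring

lemma exp_spin (a : ℝ) {y : ℝ} (hy : y = 1 ∨ y = -1) : exp (a * y) = cosh a * (1 + tanh a * y) := by
  have := (cosh_pos a).ne'
  rw [tanh_eq_sinh_div_cosh]
  rcases hy with rfl | rfl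
  · rw [mul_one, mul_one, ← cosh_add_sinh]; field_simp
  · rw [mul_neg_one, ← cosh_sub_sinh]; field_simp; ring

lemma spin_or (b : Bool) : spin b = 1 ∨ spin b = -1 := by cases b <;> simp

lemma isw_pair (hs : ∀ i j, J i j = J j i) (hd : ∀ i, J i i = 0) (h : ι → ℝ) (x : ι → Bool)
    (i j : ι) : ∃ C s s' : ℝ, 0 < C ∧ |s| ≤ 1 ∧ |s'| ≤ 1 ∧ ∀ b b',
      isw J h (update (update x i b) j b') =
        C * ((1 + s * spin b) * (1 + s' * spin b') * (1 + tanh (J i j) * (spin b * spin b'))) := by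
  choose c hc using fun b => en_update hs hd h (update x i b) j
  have e : ∀ b, ∑ k, J j k * spin (update x i b k) =
      ∑ k ∈ univ.erase i, J j k * spin (x k) + J i j * spin b := fun b => by
    rw [← sum_erase_add _ _ (mem_univ i), update_self, hs j i]
    congr 1
    exact sum_congr rfl fun k hk => by rw [update_of_ne (ne_of_mem_erase hk)]
  obtain ⟨a, ha⟩ : ∃ a, a = (c true - c false) / 2 := ⟨_, rfl⟩
  obtain ⟨a', ha'⟩ : ∃ a', a' = h j + ∑ k ∈ univ.erase i, J j k * spin (x k) := ⟨_, rfl⟩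
  refine ⟨exp ((c true + c false) / 2) * cosh a * cosh a' * cosh (J i j), tanh a, tanh a',
    by positivity, (abs_tanh_lt_one _).le, (abs_tanh_lt_one _).le, fun b b' => ?_⟩
  have e1 : en J h (update (update x i b) j b') =
      (c true + c false) / 2 + a * spin b + a' * spin b' + J i j * (spin b * spin b') := by
    rw [hc, e, ha, ha']
    cases b <;> simp only [spin_true, spin_false] <;> ring
  have e2 : spin b * spin b' = 1 ∨ spin b * spin b' = -1 := by cases b <;> cases b' <;> simp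
  rw [isw, e1, exp_add, exp_add, exp_add, exp_spin a (spin_or b), exp_spin a' (spin_or b'),
    exp_spin _ e2]
  ring

lemma tanh_bounds {x : ℝ} (hx : 0 ≤ x) : 0 ≤ tanh x ∧ tanh x ≤ x ∧ x - x ^ 3 ≤ tanh x := by
  have h1 := cosh_pos x
  have h2 := self_le_sinh_iff.2 hx
  rw [tanh_eq_sinh_div_cosh]
  refine ⟨div_nonneg (hx.trans h2) h1.le, ?_, ?_⟩
  · have hd : ∀ y, HasDerivAt (fun y => y * cosh y - sinh y) (y * sinh y) y := fun y => by
      have := ((hasDerivAt_id' y).fun_mul (hasDerivAt_cosh y)).fun_sub (hasDerivAt_sinh y)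
      rwa [one_mul, add_sub_cancel_left] at this
    have hm : Monotone fun y => y * cosh y - sinh y :=
      monotone_of_hasDerivAt_nonneg hd fun y => by
        rcases le_total 0 y with hy | hy
        · exact mul_nonneg hy (sinh_nonneg_iff.2 hy)
        · exact mul_nonneg_of_nonpos_of_nonpos hy (sinh_nonpos_iff.2 hy)
    have := hm hx
    simp only [zero_mul, sinh_zero, sub_zero] at this
    rw [div_le_iff₀ h1]
    linarith
  · rw [le_div_iff₀ h1]
    have h3 : (1 - x ^ 2) * cosh x ≤ 1 := by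
      have a1 := cosh_le_exp_half_sq x
      have a2 : 1 - x ^ 2 ≤ exp (-(x ^ 2 / 2)) := by
        have := add_one_le_exp (-(x ^ 2 / 2))
        nlinarith [sq_nonneg x]
      calc _ ≤ exp (-(x ^ 2 / 2)) * exp (x ^ 2 / 2) :=
            mul_le_mul a2 a1 h1.le (exp_pos _).le
        _ = 1 := by rw [← exp_add, neg_add_cancel, exp_zero]
    nlinarith

lemma abs_tanh_bounds (x : ℝ) : |tanh x| ≤ |x| ∧ |tanh x - x| ≤ |x| ^ 3 := by
  rcases le_total 0 x with hx | hx
  · obtain ⟨a, b, c⟩ := tanh_bounds hx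
    rw [abs_of_nonneg a, abs_of_nonneg hx, abs_of_nonpos (sub_nonpos.2 b)]
    exact ⟨b, by linarith⟩
  · obtain ⟨a, b, c⟩ := tanh_bounds (neg_nonneg.2 hx)
    rw [tanh_neg] at a b c
    rw [abs_of_nonpos (by linarith), abs_of_nonpos hx, abs_of_nonneg (by linarith)]
    exact ⟨b, by linarith⟩

lemma pair_ineq (hs : ∀ i j, J i j = J j i) (hd : ∀ i, J i i = 0) (h : ι → ℝ) {i j : ι}
    (hij : i ≠ j) (ht : |tanh (J i j)| ≤ 1 / 100) (f : (ι → Bool) → ℝ) :
    0 ≤ Ex (isw J h) fun x => Dw (isw J h) i f x * Dw (isw J h) j f x +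
      tanh (J i j) * ((1 - mw (isw J h) i x ^ 2) * dd i f x * ((1 - mw (isw J h) j x ^ 2) * dd j f x)) *
        (1 + 2 * tanh (J i j) * (mw (isw J h) i x * mw (isw J h) j x)) +
      10000 * |tanh (J i j)| ^ 3 * ((1 - mw (isw J h) i x ^ 2) * dd i f x ^ 2 +
        (1 - mw (isw J h) j x ^ 2) * dd j f x ^ 2) := by
  have hW := isw_pos J h
  refine nonneg_of_mul_nonneg_right ?_ (show (0 : ℝ) < 2 * 2 by norm_num)
  rw [Ex, mul_assoc, sum_split j, sum_split i]
  refine sum_nonneg fun x _ => ?_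
  obtain ⟨C, s, s', hC, h1, h2, h3⟩ := isw_pair hs hd h x i j
  have u1 : ∀ b b' c, update (update (update x i b) j b') i c = update (update x i c) j b' :=
    fun b b' c => by rw [update_comm hij.symm, update_idem]
  have m1 : ∀ b b', mw (isw J h) i (update (update x i b) j b') = cm s (tanh (J i j)) (spin b') := by
    intro b b'
    have a1 := hW (update (update x i true) j b')
    have a2 := hW (update (update x i false) j b')
    have a3 := half_le (ht.trans (by norm_num)) (u := s * spin b')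
      (by rw [abs_mul, abs_spin, mul_one]; exact h1)
    rw [mw, u1, u1, cm, div_eq_div_iff (add_pos a1 a2).ne' (by linarith), h3, h3]
    simp only [spin_true, spin_false]
    ring
  have m2 : ∀ b b', mw (isw J h) j (update (update x i b) j b') = cm s' (tanh (J i j)) (spin b) := by
    intro b b'
    have a1 := hW (update (update x i b) j true)
    have a2 := hW (update (update x i b) j false)
    have a3 := half_le (ht.trans (by norm_num)) (u := s' * spin b)
      (by rw [abs_mul, abs_spin, mul_one]; exact h2)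
    rw [mw, update_idem, update_idem, cm, div_eq_div_iff (add_pos a1 a2).ne' (by linarith), h3, h3]
    simp only [spin_true, spin_false]
    ring
  have key := mul_nonneg hC.le (two_spin h1 h2 ht
    (fun b' => (f (update (update x i true) j b') - f (update (update x i false) j b')) / 2)
    (fun b => (f (update (update x i b) j true) - f (update (update x i b) j false)) / 2) (by ring))
  simp only [Fintype.sum_bool, term] at key
  simp only [Dw_eq hW, m1, m2, h3, dd, u1, update_idem, update_self, update_of_ne hij]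
  linarith

/-- Integrated curvature bound. -/
theorem Good.bochner (hJ : Good J η) (h : ι → ℝ) (f : (ι → Bool) → ℝ) :
    η / 2 * Dir (isw J h) f ≤ Ex (isw J h) fun x => (∑ i, Dw (isw J h) i f x) ^ 2 := by
  have hW := isw_pos J h
  set W := isw J h
  obtain ⟨u, hu⟩ : ∃ u : ι → (ι → Bool) → ℝ, ∀ i x, u i x = (1 - mw W i x ^ 2) * dd i f x :=
    ⟨_, fun _ _ => rfl⟩
  obtain ⟨e, he⟩ : ∃ e : ι → (ι → Bool) → ℝ, ∀ i x, e i x = (1 - mw W i x ^ 2) * dd i f x ^ 2 :=
    ⟨_, fun _ _ => rfl⟩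
  have v0 : ∀ i x, 0 ≤ 1 - mw W i x ^ 2 := fun i x => sub_nonneg.2 (mw_sq_le hW x)
  have e0 : ∀ i x, 0 ≤ e i x := fun i x => by rw [he]; exact mul_nonneg (v0 i x) (sq_nonneg _)
  have ue : ∀ i x, u i x ^ 2 = (1 - mw W i x ^ 2) * e i x := fun i x => by rw [hu, he]; ring
  have ue' : ∀ i x, u i x ^ 2 ≤ e i x := fun i x => by
    rw [ue]; exact mul_le_of_le_one_left (e0 i x) (by nlinarith [sq_nonneg (mw W i x)])
  have hη := hJ.pos
  have pair : ∀ i j, Ex W (fun x => (if i = j then e i x else 0) - J i j * u i x * u j x -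
      J i j ^ 2 * ((mw W i x * u i x) ^ 2 + η / 4 * e i x) -
      J i j ^ 2 * ((mw W j x * u j x) ^ 2 + η / 4 * e j x)) ≤
      Ex W fun x => Dw W i f x * Dw W j f x := by
    intro i j
    by_cases hij : i = j
    · subst hij
      rw [Ex_Dw_sq hW]
      exact Ex_mono hW fun x => by simp [hJ.diag, he]
    obtain ⟨t1, t2⟩ := abs_tanh_bounds (J i j)
    have s1 := hJ.small i j
    have h1 := pair_ineq hJ.symm hJ.diag h hij (by linarith [hJ.le]) f
    rw [← sub_nonneg, ← Ex_sub]
    refine h1.trans (Ex_mono hW fun x => ?_)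
    rw [← hu, ← hu, ← he, ← he, if_neg hij]
    have a0 := add_nonneg (e0 i x) (e0 j x)
    have a1 : |J i j| ^ 3 ≤ J i j ^ 2 * (η / 50000) := by
      rw [pow_succ, sq_abs]; exact mul_le_mul_of_nonneg_left s1 (sq_nonneg _)
    have a2 : |tanh (J i j)| ^ 3 ≤ J i j ^ 2 * (η / 50000) :=
      (pow_le_pow_left₀ (abs_nonneg _) t1 3).trans a1
    have a3 : (tanh (J i j) - J i j) * (u i x * u j x) ≤
        J i j ^ 2 * (η / 50000) * (e i x + e j x) := by
      refine (le_abs_self _).trans ?_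
      rw [abs_mul]
      refine mul_le_mul (t2.trans a1) ?_ (abs_nonneg _) (by positivity)
      rw [abs_le]
      constructor <;> nlinarith [ue' i x, ue' j x, sq_nonneg (u i x + u j x),
        sq_nonneg (u i x - u j x), sq_nonneg (u i x), sq_nonneg (u j x)]
    have a4 : tanh (J i j) ^ 2 * (2 * (mw W i x * u i x) * (mw W j x * u j x)) ≤
        J i j ^ 2 * ((mw W i x * u i x) ^ 2 + (mw W j x * u j x) ^ 2) := by
      calc _ ≤ tanh (J i j) ^ 2 * ((mw W i x * u i x) ^ 2 + (mw W j x * u j x) ^ 2) :=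
            mul_le_mul_of_nonneg_left (two_mul_le_add_sq _ _) (sq_nonneg _)
        _ ≤ _ := mul_le_mul_of_nonneg_right (sq_le_sq.2 t1) (by positivity)
    have a5 := mul_le_mul_of_nonneg_right a2 a0
    have a6 : 0 ≤ J i j ^ 2 * η * (e i x + e j x) := by positivity
    linear_combination a3 + a4 + 10000 * a5 + (1 / 4 - 10001 / 50000) * a6
  have e1 : Ex W (fun x => (∑ i, Dw W i f x) ^ 2) =
      ∑ i, ∑ j, Ex W fun x => Dw W i f x * Dw W j f x := by
    simp only [sq, sum_mul_sum, Ex_sum]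
  have e2 : η / 2 * Dir W f = Ex W fun x => η / 2 * ∑ i, e i x := by
    simp only [Dir, Ex_Dw_sq hW, Ex_mul, Ex_sum, he]
  rw [e1, e2]
  refine le_trans ?_ (sum_le_sum fun i _ => sum_le_sum fun j _ => pair i j)
  simp only [← Ex_sum]
  refine Ex_mono hW fun x => ?_
  have b1 := hJ.quad fun i => u i x
  obtain ⟨r, hr⟩ : ∃ r : ι → ℝ, ∀ i, r i = (mw W i x * u i x) ^ 2 + η / 4 * e i x :=
    ⟨_, fun _ => rfl⟩
  have r0 : ∀ i, 0 ≤ r i := fun i => by rw [hr]; have := e0 i x; positivity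
  have b2 : ∑ i, ∑ j, J i j ^ 2 * r i ≤ ∑ i, 1 / 2 * r i := sum_le_sum fun i _ => by
    rw [← sum_mul]; exact mul_le_mul_of_nonneg_right (hJ.row i) (r0 i)
  have b3 : ∑ i, ∑ j, J i j ^ 2 * r j ≤ ∑ i, 1 / 2 * r i := by
    rw [sum_comm]
    simpa only [hJ.symm] using b2
  have b4 : ∑ i, (η / 2 * e i x + (1 - η) * u i x ^ 2 + r i) ≤ ∑ i, e i x := sum_le_sum fun i _ => by
    rw [hr, mul_pow, ue]
    have c1 := v0 i x
    have c2 := hJ.le
    have c3 : 3 / 4 * η + (1 - η) * (1 - mw W i x ^ 2) + mw W i x ^ 2 * (1 - mw W i x ^ 2) ≤ 1 := by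
      nlinarith [sq_nonneg (mw W i x ^ 2 - 1 / 2), sq_nonneg (mw W i x ^ 2),
        mul_nonneg (sub_nonneg.2 c2) (sq_nonneg (mw W i x ^ 2))]
    nlinarith [mul_le_mul_of_nonneg_right c3 (e0 i x)]
  simp only [← hr, sum_sub_distrib, sum_ite_eq, mem_univ, if_true]
  simp only [sum_add_distrib, ← mul_sum] at b2 b3 b4
  linarith

theorem Good.poincare (hJ : Good J η) (h : ι → ℝ) {g : (ι → Bool) → ℝ} (hg : Ex (isw J h) g = 0) :
    η / 2 * Ex (isw J h) (fun x => g x ^ 2) ≤ Dir (isw J h) g :=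
  poincare_of_bochner (isw_pos J h) (half_pos hJ.pos) (hJ.bochner h) hg

end

end Vale.Agent.P150
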