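import Mathlib

/-! The Sherrington-Kirkpatrick model and its heat-bath dynamics. -/

namespace Vale.Agent.P150

open MeasureTheory ProbabilityTheory

noncomputable section

/-- Spin configurations: `true` is the spin `1`, `false` is the spin `-1`. -/
abbrev Conf (n : ℕ) : Type := Fin n → Bool

/-- The real value of a spin. -/
def sp (b : Bool) : ℝ := if b then 1 else -1

/-- Pairs of sites `i < j`. -/
abbrev Pair (n : ℕ) : Type := {p : Fin n × Fin n // p.1 < p.2}

/-- The law of the disorder: independent standard Gaussians. -/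
def disorder (n : ℕ) : Measure (Pair n → ℝ) := Measure.pi fun _ => gaussianReal 0 1

variable {n : ℕ}

/-- The exponent of the Gibbs weight. -/
def ham (β : ℝ) (g : Pair n → ℝ) (x : Conf n) : ℝ :=
  β / √n * ∑ p : Pair n, g p * sp (x p.1.1) * sp (x p.1.2)

/-- The Gibbs measure. -/
def gibbs (β : ℝ) (g : Pair n → ℝ) (x : Conf n) : ℝ :=
  Real.exp (ham β g x) / ∑ y, Real.exp (ham β g y)

/-- The symmetric extension of the disorder. -/
def gsym (g : Pair n → ℝ) (i j : Fin n) : ℝ :=
  if h : i < j then g ⟨(i, j), h⟩ else if h' : j < i then g ⟨(j, i), h'⟩ else 0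

/-- The local field at the site `i`. -/
def field (β : ℝ) (g : Pair n → ℝ) (i : Fin n) (x : Conf n) : ℝ :=
  β / √n * ∑ j ∈ Finset.univ.erase i, gsym g i j * sp (x j)

/-- The transition matrix of the heat-bath update of the site `i`. -/
def heat (β : ℝ) (g : Pair n → ℝ) (i : Fin n) : Matrix (Conf n) (Conf n) ℝ := fun x y =>
  if ∀ j, j ≠ i → y j = x j then
    Real.exp (sp (y i) * field β g i x) / (2 * Real.cosh (field β g i x))
  else 0

/-- The generator. -/
def gen (β : ℝ) (g : Pair n → ℝ) : Matrix (Conf n) (Conf n) ℝ := ∑ i, (heat β g i - 1)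

/-- The continuous time kernel. -/
def kern (β : ℝ) (g : Pair n → ℝ) (t : ℝ) : Matrix (Conf n) (Conf n) ℝ :=
  NormedSpace.exp (t • gen β g)

/-- Total variation distance to equilibrium at time `t` from the start `x`. -/
def tv (β : ℝ) (g : Pair n → ℝ) (t : ℝ) (x : Conf n) : ℝ :=
  (∑ y, |kern β g t x y - gibbs β g y|) / 2

/-- The mixing time. -/
def tmix (β : ℝ) (g : Pair n → ℝ) : ℝ := sInf {t : ℝ | 0 ≤ t ∧ ∀ x, tv β g t x ≤ 1 / 4}

/-- The variance under the Gibbs measure. -/
def var (β : ℝ) (g : Pair n → ℝ) (f : Conf n → ℝ) : ℝ :=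
  ∑ x, gibbs β g x * (f x - ∑ y, gibbs β g y * f y) ^ 2

/-- The quadratic form of minus the generator in the Gibbs inner product. -/
def form (β : ℝ) (g : Pair n → ℝ) (f : Conf n → ℝ) : ℝ :=
  ∑ x, gibbs β g x * (f x * (-gen β g).mulVec f x)

/-- The spectral gap: the infimum of the Rayleigh quotients over functions of non-zero variance. -/
def gap (β : ℝ) (g : Pair n → ℝ) : ℝ :=
  sInf {r : ℝ | ∃ f : Conf n → ℝ, var β g f ≠ 0 ∧ r = form β g f / var β g f}

end

end Vale.Agent.P150
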