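import Vale.Agent.P150.Ent

/-! From approximate tensorisation to mixing. -/

set_option linter.all false

namespace Vale.Agent.P150

open Finset Function Real

noncomputable section

variable {ι : Type} [Fintype ι] [DecidableEq ι] {W f g : (ι → Bool) → ℝ}

/-- One step of the discrete chain. -/
def Pw (W f : (ι → Bool) → ℝ) (x : ι → Bool) : ℝ := (∑ i, Qw W i f x) / Fintype.card ι

lemma Ent_Qw (hW : ∀ x, 0 < W x) (f : (ι → Bool) → ℝ) (i : ι) :
    Ex W (fun x => Ph (Qw W i f x) (av W f)) = Ent W f - Ex W fun x => Ph (f x) (Qw W i f x) := by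
  have h1 := Ex_mul_Qw hW (g := fun x => log (Qw W i f x)) (i := i)
    (fun x b => by simp only [ind_Qw W i f x b]) f
  have h2 := Ex_Qw hW (i := i) f
  simp only [Ent, Ph, Ex_add, Ex_sub, mul_comm _ (log _), Ex_mul]
  simp only [h1]
  rw [show (Ex W fun x => Qw W i f x) = Ex W f from h2]
  ring

lemma Ex_Qw_symm (hW : ∀ x, 0 < W x) (i : ι) (f g : (ι → Bool) → ℝ) :
    Ex W (fun x => g x * Qw W i f x) = Ex W fun x => Qw W i g x * f x := by
  rw [← Ex_mul_Qw hW (ind_Qw W i g) f]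
  simp only [mul_comm _ (Qw W i f _)]
  exact (Ex_mul_Qw hW (ind_Qw W i f) g).symm

lemma Ex_Pw_symm (hW : ∀ x, 0 < W x) (f g : (ι → Bool) → ℝ) :
    Ex W (fun x => g x * Pw W f x) = Ex W fun x => Pw W g x * f x := by
  simp only [Pw, div_eq_inv_mul, mul_left_comm (g _), mul_assoc, Ex_mul, mul_sum, sum_mul, Ex_sum,
    Ex_Qw_symm hW]

lemma Ex_iter_symm (hW : ∀ x, 0 < W x) (k : ℕ) (f g : (ι → Bool) → ℝ) :
    Ex W (fun x => g x * (Pw W)^[k] f x) = Ex W fun x => (Pw W)^[k] g x * f x := by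
  induction k generalizing g with
  | zero => rfl
  | succ k ih => rw [iterate_succ_apply', Ex_Pw_symm hW, ih, iterate_succ_apply]

variable [Nonempty ι]

lemma card_pos' : (0 : ℝ) < Fintype.card ι := by exact_mod_cast Fintype.card_pos

lemma Pw_pos (hW : ∀ x, 0 < W x) (hf : ∀ x, 0 < f x) (x : ι → Bool) : 0 < Pw W f x :=
  div_pos (sum_pos (fun _ _ => Qw_pos hW hf x) univ_nonempty) card_pos'

lemma Ex_Pw (hW : ∀ x, 0 < W x) (f : (ι → Bool) → ℝ) : Ex W (Pw W f) = Ex W f := by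
  have : ∀ i, (Ex W fun x => Qw W i f x) = Ex W f := fun i => Ex_Qw hW f
  show Ex W (fun x => (∑ i, Qw W i f x) / Fintype.card ι) = _
  simp only [div_eq_inv_mul, Ex_mul, Ex_sum, this, sum_const, card_univ, nsmul_eq_mul]
  exact inv_mul_cancel_left₀ card_pos'.ne' _

lemma Ent_Pw (hW : ∀ x, 0 < W x) {A : ℝ} (hA : 0 < A) (h : AT W A) (hf : ∀ x, 0 < f x) :
    Ent W (Pw W f) ≤ (1 - 1 / (2 * A * Fintype.card ι)) ^ 2 * Ent W f := by
  have hn := card_pos' (ι := ι)
  have ha := av_pos hW hf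
  have h1 := h f (fun i => Qw W i f) hf (fun i => Qw_pos hW hf) fun i => ind_Qw W i f
  have h2 : ∀ x, Ph (Pw W f x) (av W f) ≤
      (Fintype.card ι : ℝ)⁻¹ * ∑ i, Ph (Qw W i f x) (av W f) := fun x => by
    have a1 := sum_le_sum fun i (_ : i ∈ univ) =>
      young (Qw_pos hW hf (i := i) x) ha (log (Pw W f x) - log (av W f))
    rw [exp_sub, exp_log (Pw_pos hW hf x), exp_log ha, sum_sub_distrib, ← sum_mul, sum_const,
      card_univ, nsmul_eq_mul] at a1
    rw [← div_eq_inv_mul, le_div_iff₀ hn]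
    refine le_of_eq_of_le ?_ a1
    rw [show ∑ i, Qw W i f x = Pw W f x * Fintype.card ι from (div_mul_cancel₀ _ hn.ne').symm, Ph]
    field_simp
    ring
  have h3 : Ent W (Pw W f) ≤ (Fintype.card ι : ℝ)⁻¹ *
      (Fintype.card ι * Ent W f - ∑ i, Ex W fun x => Ph (f x) (Qw W i f x)) := by
    refine ((Ent_le hW (Pw_pos hW hf) ha).trans (Ex_mono hW h2)).trans_eq ?_
    simp only [Ex_mul, Ex_sum, Ent_Qw hW, sum_sub_distrib, sum_const, card_univ, nsmul_eq_mul]
  have hE := Ent_nonneg hW hf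
  rw [← div_le_iff₀' hA] at h1
  calc _ ≤ (Fintype.card ι : ℝ)⁻¹ * (Fintype.card ι * Ent W f - Ent W f / A) :=
        h3.trans (mul_le_mul_of_nonneg_left (sub_le_sub_left h1 _) (by positivity))
    _ = (1 - 2 * (1 / (2 * A * Fintype.card ι))) * Ent W f := by field_simp
    _ ≤ _ := mul_le_mul_of_nonneg_right (by nlinarith [sq_nonneg (1 / (2 * A * Fintype.card ι))]) hE

lemma iter_le (hW : ∀ x, 0 < W x) {A L : ℝ} (hA : 1 ≤ A) (h : AT W A) (x : ι → Bool)
    (hL : log ((∑ y, W y) / W x) ≤ L) {s : (ι → Bool) → ℝ} (hs : ∀ y, |s y| ≤ 1) (k : ℕ) :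
    (Pw W)^[k] s x ≤ av W s + 4 * √L * (1 - 1 / (2 * A * Fintype.card ι)) ^ k := by
  have hZ := sumW_pos hW
  have hn : (1 : ℝ) ≤ Fintype.card ι := by exact_mod_cast Fintype.card_pos
  obtain ⟨r, hr⟩ : ∃ r : ℝ, r = 1 - 1 / (2 * A * Fintype.card ι) := ⟨_, rfl⟩
  have r0 : 0 ≤ r := by
    rw [hr, sub_nonneg, div_le_one (by positivity)]
    nlinarith
  obtain ⟨f, hf⟩ : ∃ f : (ι → Bool) → ℝ, ∀ y,
    f y = 1 / 2 * ((if y = x then (∑ y, W y) / W x else 0) + 1) := ⟨_, fun _ => rfl⟩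
  have b1 : 1 ≤ (∑ y, W y) / W x :=
    (one_le_div (hW x)).2 (single_le_sum (fun y _ => (hW y).le) (mem_univ x))
  have f0 : ∀ y, 0 < f y := fun y => by rw [hf]; split_ifs <;> linarith
  have f1 : ∀ y, log (f y) ≤ L := fun y =>
    (log_le_log (f0 y) (by rw [hf]; split_ifs <;> linarith)).trans hL
  have L0 : 0 ≤ L := (log_nonneg b1).trans hL
  have e1 : ∀ F, Ex W (fun y => f y * F y) = 1 / 2 * ((∑ y, W y) * F x + Ex W F) := fun F => by
    simp only [hf, mul_assoc, Ex_mul, add_mul, Ex_add, one_mul]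
    congr 2
    simp only [Ex, ite_mul, zero_mul, mul_ite, mul_zero, sum_ite_eq', mem_univ, if_true]
    have := (hW x).ne'
    field_simp
  have e2 : Ex W f = ∑ y, W y := by
    have := e1 fun _ => 1
    simp only [mul_one, Ex_const, one_mul] at this
    rw [show Ex W f = _ from this]
    ring
  have key : ∀ k, (∀ y, 0 < (Pw W)^[k] f y) ∧ (∀ F, Ex W ((Pw W)^[k] F) = Ex W F) ∧
      Ent W ((Pw W)^[k] f) ≤ (r ^ k) ^ 2 * (L * ∑ y, W y) := by
    intro k
    induction k with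
    | zero =>
      refine ⟨f0, fun _ => rfl, ?_⟩
      have a1 := Ex_mono hW fun y => mul_le_mul_of_nonneg_right (f1 y) (f0 y).le
      simp only [iterate_zero, id, Ent, av, e2, div_self hZ.ne', Ph, log_one, mul_zero, sub_zero,
        Ex_add, Ex_sub, Ex_const, mul_comm (f _)]
      rw [Ex_mul, show (Ex W fun y => f y) = _ from e2] at a1
      rw [Ex_mul]
      linarith
    | succ k ih =>
      simp only [iterate_succ_apply']
      refine ⟨Pw_pos hW ih.1, fun F => by rw [Ex_Pw hW, ih.2.1], ?_⟩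
      refine (Ent_Pw hW (by linarith) h ih.1).trans ?_
      rw [← hr, pow_succ' r k, mul_pow, mul_assoc]
      exact mul_le_mul_of_nonneg_left ih.2.2 (sq_nonneg _)
  obtain ⟨k1, k2, k3⟩ := key k
  have a1 := pinsker hW k1
  rw [av, k2, e2, div_self hZ.ne', one_mul] at a1
  have a2 : Ex W (fun y => |(Pw W)^[k] f y - 1|) ≤ 2 * (∑ y, W y) * √L * r ^ k := by
    refine (abs_le_of_sq_le_sq' ?_ (by positivity)).2
    simp only [mul_pow, sq_sqrt L0]
    nlinarith [mul_le_mul_of_nonneg_right k3 (by positivity : 0 ≤ 4 * ∑ y, W y)]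
  have a3 := e1 ((Pw W)^[k] s)
  rw [Ex_iter_symm hW, k2] at a3
  have a4 : Ex W (fun y => (Pw W)^[k] f y * s y) ≤
      Ex W (fun y => |(Pw W)^[k] f y - 1|) + Ex W s := by
    rw [← Ex_add]
    refine Ex_mono hW fun y => ?_
    have := (le_abs_self _).trans ((abs_mul ((Pw W)^[k] f y - 1) (s y)).trans_le
      (mul_le_of_le_one_right (abs_nonneg _) (hs y)))
    linarith
  rw [Ex_eq_av hW s] at a3 a4
  rw [← hr]
  refine le_of_mul_le_mul_left ?_ hZ
  linarith

open scoped Matrix.Norms.Operator in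
set_option backward.isDefEq.respectTransparency false in
omit [Nonempty ι] in
lemma hasSum_exp (S : Matrix (ι → Bool) (ι → Bool) ℝ) :
    HasSum (fun k : ℕ => ((k.factorial : ℝ)⁻¹) • S ^ k) (NormedSpace.exp S) :=
  NormedSpace.exp_series_hasSum_exp' S

/-- Total variation bound for the continuous time chain. -/
theorem tv_le (hW : ∀ x, 0 < W x) {A L : ℝ} (hA : 1 ≤ A) (h : AT W A) (x : ι → Bool)
    (hL : log ((∑ y, W y) / W x) ≤ L) {Q : ι → Matrix (ι → Bool) (ι → Bool) ℝ}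
    (hQ : ∀ i f, (Q i).mulVec f = Qw W i f) {t : ℝ} (ht : 0 ≤ t) :
    ∑ y, |NormedSpace.exp (t • ∑ i, (Q i - 1)) x y - W y / ∑ z, W z| ≤
      4 * √L * exp (-(t / (2 * A))) := by
  have hn := card_pos' (ι := ι)
  obtain ⟨N, hN⟩ : ∃ N : ℝ, N = Fintype.card ι := ⟨_, rfl⟩
  obtain ⟨K, hK⟩ : ∃ K, K = NormedSpace.exp (t • ∑ i, (Q i - 1)) := ⟨_, rfl⟩
  rw [← hK]
  obtain ⟨s, hs⟩ : ∃ s : (ι → Bool) → ℝ, ∀ y, s y = if 0 ≤ K x y - W y / ∑ z, W z then 1 else -1 :=
    ⟨_, fun _ => rfl⟩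
  have s1 : ∀ y, |s y| ≤ 1 := fun y => by rw [hs]; split_ifs <;> simp
  have e1 : ∑ y, |K x y - W y / ∑ z, W z| = K.mulVec s x - av W s := by
    rw [av, Ex, sum_div, Matrix.mulVec, dotProduct, ← sum_sub_distrib]
    refine sum_congr rfl fun y _ => ?_
    rw [hs]
    split_ifs with hy
    · rw [abs_of_nonneg hy]; ring
    · rw [abs_of_neg (not_le.1 hy)]; ring
  have e2 : K = exp (-(t * N)) • NormedSpace.exp (t • ∑ i, Q i) := by
    have a1 : t • ∑ i, (Q i - 1) = Matrix.diagonal (fun _ => -(t * N)) + t • ∑ i, Q i := by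
      rw [sum_sub_distrib, sum_const, card_univ, smul_sub, ← Nat.cast_smul_eq_nsmul ℝ, ← hN,
        smul_smul, ← Matrix.smul_one_eq_diagonal, neg_smul, neg_add_eq_sub]
    rw [hK, a1, Matrix.exp_add_of_commute _ _ (by
      rw [← Matrix.smul_one_eq_diagonal]; exact (Commute.one_left _).smul_left _),
      Matrix.exp_diagonal, show NormedSpace.exp (fun _ : ι → Bool => -(t * N)) =
        fun _ => exp (-(t * N)) from funext fun y => by
          rw [Pi.coe_exp, Real.exp_eq_exp_ℝ], ← Matrix.smul_one_eq_diagonal, smul_mul_assoc, one_mul]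
  have e3 : ∀ k, ((t • ∑ i, Q i) ^ k).mulVec s = (t * N) ^ k • (Pw W)^[k] s := fun k => by
    induction k with
    | zero => simp
    | succ k ih =>
      rw [pow_succ', ← Matrix.mulVec_mulVec, ih, Matrix.mulVec_smul, iterate_succ_apply',
        Matrix.smul_mulVec, Matrix.sum_mulVec, pow_succ, mul_smul, mul_smul t]
      congr 2
      funext y
      simp only [hQ, Finset.sum_apply, Pi.smul_apply, Pw, smul_eq_mul, hN]
      field_simp
  have h1 : HasSum (fun k : ℕ => (k.factorial : ℝ)⁻¹ * ((t * N) ^ k * (Pw W)^[k] s x))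
      ((NormedSpace.exp (t • ∑ i, Q i)).mulVec s x) := by
    have a1 := (hasSum_exp (t • ∑ i, Q i)).map
      (AddMonoidHom.mk' (fun M : Matrix (ι → Bool) (ι → Bool) ℝ => M.mulVec s x)
        fun M M' => by simp [Matrix.add_mulVec])
      (by simp only [AddMonoidHom.mk'_apply, Matrix.mulVec, dotProduct]; fun_prop)
    simpa only [Function.comp_def, AddMonoidHom.mk'_apply, Matrix.smul_mulVec, e3, Pi.smul_apply,
      smul_eq_mul] using a1
  have h2 : ∀ u : ℝ, HasSum (fun k : ℕ => (k.factorial : ℝ)⁻¹ * u ^ k) (exp u) := fun u => by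
    rw [Real.exp_eq_exp_ℝ]
    exact NormedSpace.exp_series_hasSum_exp' (𝕂 := ℝ) u
  have h3 := hasSum_le (fun k => ?_) h1 (((h2 (t * N)).mul_right (av W s)).add
    ((h2 (t * N * (1 - 1 / (2 * A * N)))).mul_left (4 * √L)))
  · rw [e1, e2, Matrix.smul_mulVec, Pi.smul_apply, smul_eq_mul, sub_le_iff_le_add']
    refine (mul_le_mul_of_nonneg_left h3 (exp_pos _).le).trans_eq ?_
    rw [mul_add, ← mul_assoc, ← exp_add, neg_add_cancel, exp_zero, one_mul, mul_left_comm, ← exp_add]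
    rw [← hN] at hn
    congr 3
    field_simp
    ring
  · have a1 := mul_le_mul_of_nonneg_left (iter_le hW hA h x hL s1 k)
      (by rw [← hN] at hn; positivity : 0 ≤ (k.factorial : ℝ)⁻¹ * (t * N) ^ k)
    rw [← hN] at a1
    rw [mul_pow (t * N)]
    linarith

end

end Vale.Agent.P150
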