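import Vale.Agent.P150.Step

/-! Approximate tensorisation of entropy for Ising weights. -/

set_option linter.all false

namespace Vale.Agent.P150

open Finset Function Real

noncomputable section

variable {ι : Type} [Fintype ι] [DecidableEq ι] {J : ι → ι → ℝ} {η Λ : ℝ}

lemma Qw_isw (hs : ∀ i j, J i j = J j i) (hd : ∀ i, J i i = 0) (h : ι → ℝ) (i : ι)
    (F : (ι → Bool) → ℝ) (x : ι → Bool) :
    Qw (isw J h) i F x = (exp (h i + ∑ j, J i j * spin (x j)) * F (update x i true) +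
      exp (-(h i + ∑ j, J i j * spin (x j))) * F (update x i false)) /
        (2 * cosh (h i + ∑ j, J i j * spin (x j))) := by
  obtain ⟨c, hc⟩ := en_update hs hd h x i
  have h1 := exp_pos c
  have h2 := exp_pos (h i + ∑ j, J i j * spin (x j))
  have h3 := exp_pos (-(h i + ∑ j, J i j * spin (x j)))
  simp only [Qw, isw, hc, exp_add c, spin_true, spin_false, one_mul, neg_mul, cosh_eq]
  field_simp

lemma AT_zero (J : ι → ι → ℝ) (h : ι → ℝ) : AT (isw (fun i j => 0 * J i j) h) 1 := by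
  refine AT_prod (isw_pos _ h) fun i j F hF x b => ?_
  by_cases hij : i = j
  · subst hij; exact ind_Qw _ i F x b
  · rw [Qw_isw (by simp) (by simp), Qw_isw (by simp) (by simp)]
    simp only [zero_mul, sum_const_zero, update_comm (Ne.symm hij), hF _ b]

open scoped MatrixOrder in
lemma exists_root (hs : ∀ i j, J i j = J j i)
    (hl : ∀ u : ι → ℝ, -(Λ * ∑ i, u i ^ 2) ≤ ∑ i, ∑ j, J i j * u i * u j) :
    ∃ B : ι → ι → ℝ, ∀ u : ι → ℝ,
      ∑ k, (∑ i, B k i * u i) ^ 2 = ∑ i, ∑ j, J i j * u i * u j + Λ * ∑ i, u i ^ 2 := by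
  have e : ∀ u : ι → ℝ, u ⬝ᵥ ((Matrix.of J + Matrix.diagonal fun _ => Λ).mulVec u) =
      ∑ i, ∑ j, J i j * u i * u j + Λ * ∑ i, u i ^ 2 := fun u => by
    rw [Matrix.add_mulVec, dotProduct_add]
    congr 1
    · simp only [dotProduct, Matrix.mulVec, Matrix.of_apply, mul_sum]
      exact sum_congr rfl fun i _ => sum_congr rfl fun j _ => by ring
    · simp only [dotProduct, Matrix.mulVec_diagonal, mul_sum]
      exact sum_congr rfl fun i _ => by ring
  have hP : (Matrix.of J + Matrix.diagonal fun _ => Λ).PosSemidef := by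
    refine .of_dotProduct_mulVec_nonneg ?_ fun u => ?_
    · refine Matrix.IsHermitian.add ?_ (Matrix.isHermitian_diagonal _)
      ext i j
      simp [hs i j]
    · rw [star_trivial, e]
      linarith [hl u]
  obtain ⟨B, hB⟩ := CStarAlgebra.nonneg_iff_eq_star_mul_self.mp hP.nonneg
  refine ⟨fun k i => B k i, fun u => ?_⟩
  rw [← e, hB, ← Matrix.mulVec_mulVec, Matrix.star_eq_conjTranspose,
    Matrix.conjTranspose_eq_transpose_of_trivial, Matrix.mulVec_transpose, dotProduct_comm,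
    ← Matrix.dotProduct_mulVec]
  simp only [dotProduct, Matrix.mulVec, sq]

lemma log_est {a q γ s : ℝ} (hs : s = 1 ∨ s = -1) (ha : |a| ≤ γ) (hq0 : 0 ≤ q) (hq : q ≤ γ ^ 2 / 2)
    (hγ : γ ≤ 1 / 10) : 1 / 2 ≤ 1 + (s * a + (a ^ 2 / 2 - q)) ∧
      |log (1 + (s * a + (a ^ 2 / 2 - q))) - s * a + q| ≤ 17 * γ ^ 3 := by
  have h0 : 0 ≤ γ := (abs_nonneg _).trans ha
  have h1 : a ^ 2 ≤ γ ^ 2 := by rw [← sq_abs]; exact pow_le_pow_left₀ (abs_nonneg _) ha 2
  have h2 : |a ^ 2 / 2 - q| ≤ γ ^ 2 / 2 := abs_le.2 ⟨by nlinarith [sq_nonneg a], by linarith⟩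
  have h3 : |s * a| ≤ γ := by rcases hs with rfl | rfl <;> simpa using ha
  have h4 : (s * a) ^ 2 = a ^ 2 := by rcases hs with rfl | rfl <;> ring
  obtain ⟨w, hw⟩ : ∃ w, w = a ^ 2 / 2 - q := ⟨_, rfl⟩
  obtain ⟨b, hb⟩ : ∃ b, b = s * a := ⟨_, rfl⟩
  rw [← hw] at h2 ⊢
  rw [← hb] at h3 h4 ⊢
  have h5 : |b + w| ≤ 2 * γ := (abs_add_le _ _).trans (by nlinarith)
  have h6 := abs_log_sub_add_sum_range_le (x := -(b + w)) (by rw [abs_neg]; linarith) 2
  simp only [sum_range_succ, range_zero, sum_empty, abs_neg, sub_neg_eq_add] at h6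
  have h7 : |b + w| ^ (2 + 1) / (1 - |b + w|) ≤ 16 * γ ^ 3 := by
    rw [div_le_iff₀ (by linarith)]
    have := pow_le_pow_left₀ (abs_nonneg _) h5 (2 + 1)
    have a1 := mul_nonneg (pow_nonneg h0 3) (by linarith : 0 ≤ 1 / 2 - |b + w|)
    have a2 : (2 * γ) ^ (2 + 1) = 8 * γ ^ 3 := by ring
    linarith
  have h8 : |b * w + w ^ 2 / 2| ≤ γ ^ 3 := by
    refine (abs_add_le _ _).trans ?_
    rw [abs_mul, abs_div, abs_pow, abs_two]
    have a1 := mul_le_mul h3 h2 (abs_nonneg _) h0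
    have a2 := pow_le_pow_left₀ (abs_nonneg _) h2 2
    nlinarith [pow_nonneg h0 3]
  refine ⟨by linarith [neg_abs_le (b + w)], ?_⟩
  have e : log (1 + (b + w)) - b + q = (0 + (-(b + w)) ^ (0 + 1) / (((0 : ℕ) : ℝ) + 1) +
      (-(b + w)) ^ (1 + 1) / (((1 : ℕ) : ℝ) + 1) + log (1 + (b + w))) - (b * w + w ^ 2 / 2) := by
    push_cast
    linear_combination hw - (1 / 2) * h4
  rw [e]
  exact (abs_sub _ _).trans (by linarith)

lemma Good.step [Nonempty ι] (hJ : Good J η) (hΛ : 0 ≤ Λ) {B : ι → ι → ℝ}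
    (hB : ∀ u : ι → ℝ,
      ∑ k, (∑ i, B k i * u i) ^ 2 = ∑ i, ∑ j, J i j * u i * u j + Λ * ∑ i, u i ^ 2)
    {s ε γ A : ℝ} (hε : 0 ≤ ε) (hs0 : 0 ≤ s) (hs : s + ε ≤ 1) (hγ0 : 0 ≤ γ) (hγ : γ ≤ 1 / 10)
    (hεγ : ε * (Fintype.card ι) ^ 2 * (1 + Λ) ≤ γ ^ 2) (hd : 8 * ε * (1 + Λ) / η ≤ 1 / 4)
    (hA : 0 ≤ A) (hAT : ∀ h, AT (isw (fun i j => s * J i j) h) A) (h : ι → ℝ) :
    AT (isw (fun i j => (s + ε) * J i j) h)
      (exp (2 * (8 * ε * (1 + Λ) / η + 2 * γ ^ 4)) * (exp (2 * (17 * γ ^ 3)) * A)) := by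
  have hη := hJ.pos
  have hJ' := hJ.smul (add_nonneg hs0 hε) hs
  have hW := isw_pos (fun i j => (s + ε) * J i j) h
  obtain ⟨N, hN⟩ : ∃ N : ℝ, N = Fintype.card ι := ⟨_, rfl⟩
  have hN1 : 1 ≤ N := by rw [hN]; exact_mod_cast Fintype.card_pos
  rw [← hN] at hεγ
  have hB' : ∀ u : ι → ℝ, ∑ k, (∑ i, B k i * u i) ^ 2 ≤ (1 + Λ) * ∑ i, u i ^ 2 := fun u => by
    have := hJ.quad u
    have : 0 ≤ η * ∑ i, u i ^ 2 := mul_nonneg hη.le (sum_nonneg fun _ _ => sq_nonneg _)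
    rw [hB]; linarith
  obtain ⟨t, ht⟩ : ∃ t : ℝ, t ^ 2 = ε * N := ⟨√(ε * N), sq_sqrt (by positivity)⟩
  obtain ⟨a, ha⟩ : ∃ a : ι → (ι → Bool) → ℝ, ∀ k x, a k x = t * ∑ i, B k i * spin (x i) :=
    ⟨_, fun _ _ => rfl⟩
  obtain ⟨q, hq⟩ : ∃ q : (ι → Bool) → ℝ, ∀ x, q x = (∑ k, a k x ^ 2) / (2 * N) := ⟨_, fun _ => rfl⟩
  have e1 : ∀ x : ι → Bool, ∑ i, spin (x i) ^ 2 = N := fun x => by simp [spin_sq, hN]
  have a1 : ∀ x, ∑ k, a k x ^ 2 ≤ γ ^ 2 := fun x => by
    simp only [ha, mul_pow, ← mul_sum, ht]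
    have := mul_le_mul_of_nonneg_left (hB' fun i => spin (x i)) (by positivity : 0 ≤ ε * N)
    rw [e1] at this
    linarith
  have a2 : ∀ k x, |a k x| ≤ γ := fun k x => abs_le_of_sq_le_sq' ((single_le_sum
    (f := fun k => a k x ^ 2) (fun _ _ => sq_nonneg _) (mem_univ k)).trans (a1 x)) hγ0 |> abs_le.2
  have q0 : ∀ x, 0 ≤ q x := fun x => by rw [hq]; positivity
  have q1 : ∀ x, q x ≤ γ ^ 2 / 2 := fun x => by
    rw [hq, div_le_div_iff₀ (by positivity) two_pos]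
    nlinarith [a1 x, sq_nonneg γ]
  have q2 : ∀ x, q x = ε * (∑ i, ∑ j, J i j * spin (x i) * spin (x j)) / 2 + ε * Λ * N / 2 :=
    fun x => by
      simp only [hq, ha, mul_pow, ← mul_sum, ht, hB, e1]
      field_simp
  have est := fun (z : ι × Bool) x => log_est (spin_or z.2) (a2 z.1 x) (q0 x) (q1 x) hγ
  refine AT_step (κ := ι × Bool) hW
    (k := fun z x => (1 + (spin z.2 * a z.1 x + (a z.1 x ^ 2 / 2 - q x))) / (2 * N))
    (fun z x => div_pos (by linarith [(est z x).1]) (by positivity)) (fun x => ?_)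
    (c := 1 / 2 / (2 * N)) (by positivity) (by nlinarith [pow_le_pow_left₀ hγ0 hγ 4])
    (by positivity) (by positivity)
    (fun z x => div_le_div_of_nonneg_right (est z x).1 (by positivity)) (fun z => ?_) fun f hf => ?_
  · simp only [Fintype.sum_prod_type, Fintype.sum_bool, spin_true, spin_false, ← add_div, ← sum_div]
    rw [div_eq_one_iff_eq (by positivity)]
    have e : ∀ k, 1 + (1 * a k x + (a k x ^ 2 / 2 - q x)) + (1 + (-1 * a k x + (a k x ^ 2 / 2 - q x))) =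
        a k x ^ 2 + (2 - 2 * q x) := fun k => by ring
    simp only [e, sum_add_distrib, sum_const, card_univ, nsmul_eq_mul, ← hN]
    rw [hq]
    field_simp
    ring
  · refine (hAT fun i => h i + spin z.2 * t * B z.1 i).near (isw_pos _ _)
      (fun x => mul_pos (hW x) (div_pos (by linarith [(est z x).1]) (by positivity))) hA
      (c := -(ε * Λ * N / 2) - log (2 * N)) fun x => ?_
    refine le_of_eq_of_le (congrArg _ ?_) (est z x).2
    rw [log_mul (hW x).ne' (div_pos (by linarith [(est z x).1]) (by positivity)).ne',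
      log_div (by linarith [(est z x).1]) (by positivity), isw, isw, log_exp, log_exp]
    have e2 : ∑ i, (h i + spin z.2 * t * B z.1 i) * spin (x i) =
        ∑ i, h i * spin (x i) + spin z.2 * a z.1 x := by
      simp only [ha, mul_sum, add_mul, sum_add_distrib, mul_assoc]
    have e3 := q2 x
    simp only [en, e2]
    simp only [mul_assoc, ← mul_sum] at e3 ⊢
    linarith
  · have h1 := hJ'.stab h hf
    have h2 := pinsker hW hf
    have hE := Ent_nonneg hW hf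
    have hZ := mul_pos (av_pos hW hf) (sumW_pos hW)
    set W := isw (fun i j => (s + ε) * J i j) h
    obtain ⟨δ, hδ⟩ : ∃ δ : ι → ℝ, ∀ i, δ i = Ex W fun x => (f x - av W f) * spin (x i) :=
      ⟨_, fun _ => rfl⟩
    obtain ⟨Y, hY⟩ : ∃ Y : ι → ℝ, ∀ k, Y k = Ex W fun x => (f x - av W f) * (a k x ^ 2 / 2 - q x) :=
      ⟨_, fun _ => rfl⟩
    simp only [← hδ] at h1
    have e2 : ∀ k b, Ex W (fun x => (f x - av W f) *
        ((1 + (spin b * a k x + (a k x ^ 2 / 2 - q x))) / (2 * N))) =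
        (spin b * (t * ∑ i, B k i * δ i) + Y k) / (2 * N) := fun k b => by
      have e3 : Ex W (fun x => f x - av W f) = 0 := by rw [Ex_sub, Ex_const, Ex_eq_av hW, sub_self]
      simp only [hδ, hY, ← Ex_mul, ← Ex_sum]
      rw [← Ex_add, ← zero_add (_ / (2 * N)), ← mul_zero (2 * N)⁻¹, ← e3, div_eq_inv_mul (Ex _ _),
        ← Ex_mul, ← Ex_mul, ← Ex_add]
      refine Ex_congr fun x => ?_
      simp only [ha, mul_left_comm (B _ _), ← mul_sum]
      ring
    have y1 : ∀ k, Y k ^ 2 ≤ γ ^ 4 * ((av W f * ∑ x, W x) * Ent W f) := fun k => by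
      have b1 : |Y k| ≤ γ ^ 2 / 2 * Ex W fun x => |f x - av W f| := by
        rw [hY, ← Ex_mul]
        refine (abs_sum_le_sum_abs _ _).trans (sum_le_sum fun x _ => ?_)
        rw [abs_mul, abs_of_pos (hW x), abs_mul, mul_comm |_|]
        refine mul_le_mul_of_nonneg_left (mul_le_mul_of_nonneg_right ?_ (abs_nonneg _)) (hW x).le
        have := pow_le_pow_left₀ (abs_nonneg _) (a2 k x) 2
        rw [sq_abs] at this
        exact abs_le.2 ⟨by nlinarith [sq_nonneg (a k x), q1 x], by linarith [q0 x]⟩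
      have b2 := pow_le_pow_left₀ (abs_nonneg _) b1 2
      rw [sq_abs, mul_pow] at b2
      nlinarith [mul_le_mul_of_nonneg_left h2 (sq_nonneg (γ ^ 2 / 2))]
    have y2 : ∑ k, Y k ^ 2 ≤ N * (γ ^ 4 * ((av W f * ∑ x, W x) * Ent W f)) := by
      have := sum_le_sum fun k (_ : k ∈ univ) => y1 k
      rwa [sum_const, card_univ, nsmul_eq_mul, ← hN] at this
    have y3 : ∑ k, (t * ∑ i, B k i * δ i) ^ 2 ≤
        ε * N * ((1 + Λ) * (4 / η * (av W f * ∑ x, W x) * Ent W f)) := by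
      simp only [mul_pow, ← mul_sum, ht]
      exact mul_le_mul_of_nonneg_left ((hB' δ).trans (mul_le_mul_of_nonneg_left h1 (by positivity)))
        (by positivity)
    have e4 : ∀ k, ((1 * (t * ∑ i, B k i * δ i) + Y k) / (2 * N)) ^ 2 +
        ((-1 * (t * ∑ i, B k i * δ i) + Y k) / (2 * N)) ^ 2 =
        ((t * ∑ i, B k i * δ i) ^ 2 + Y k ^ 2) / (2 * N ^ 2) := fun k => by field_simp; ring
    simp only [Fintype.sum_prod_type, e2, Fintype.sum_bool, spin_true, spin_false, e4, ← sum_div,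
      sum_add_distrib]
    rw [div_le_iff₀ (by positivity)]
    refine (add_le_add y3 y2).trans_eq ?_
    field_simp
    ring

/-- Approximate tensorisation with a dimension free constant. -/
theorem Good.at [Nonempty ι] (hJ : Good J η) (hΛ : 0 ≤ Λ)
    (hl : ∀ u : ι → ℝ, -(Λ * ∑ i, u i ^ 2) ≤ ∑ i, ∑ j, J i j * u i * u j) (h : ι → ℝ) :
    AT (isw J h) (exp (16 * (1 + Λ) / η + 1)) := by
  have hη := hJ.pos
  obtain ⟨B, hB⟩ := exists_root hJ.symm hl
  obtain ⟨K, hK⟩ : ∃ K : ℝ, K = (Fintype.card ι) ^ 2 * (1 + Λ) := ⟨_, rfl⟩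
  have hK1 : 1 ≤ K := by
    have : (1 : ℝ) ≤ Fintype.card ι := by exact_mod_cast Fintype.card_pos
    rw [hK]; nlinarith [one_le_pow₀ this (n := 2)]
  obtain ⟨M, hM⟩ := exists_nat_ge (max (38 ^ 2 * K ^ 3) (32 * (1 + Λ) / η))
  have hM1 := (le_max_left _ _).trans hM
  have hM2 := (le_max_right _ _).trans hM
  have hM0 : (0 : ℝ) < M := lt_of_lt_of_le (by positivity) hM1
  obtain ⟨γ, hγ0, hγ⟩ : ∃ γ : ℝ, 0 ≤ γ ∧ γ ^ 2 = K / M := ⟨√(K / M), sqrt_nonneg _,
    sq_sqrt (by positivity)⟩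
  have g1 : 38 * K * γ ≤ 1 := by
    refine (pow_le_one_iff_of_nonneg (by positivity) two_ne_zero).1 ?_
    rw [mul_pow, hγ, ← mul_div_assoc, div_le_one hM0]
    linarith
  have g2 : γ ≤ 1 / 10 := by nlinarith
  obtain ⟨D, hD⟩ : ∃ D, D = 2 * (8 * (1 / M) * (1 + Λ) / η + 2 * γ ^ 4) + 2 * (17 * γ ^ 3) :=
    ⟨_, rfl⟩
  have key : ∀ m : ℕ, m ≤ M → ∀ h, AT (isw (fun i j => (m / M : ℝ) * J i j) h) (exp (m * D)) := by
    intro m
    induction m with
    | zero => intro _ h; simpa only [Nat.cast_zero, zero_div, zero_mul, exp_zero] using AT_zero J h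
    | succ m ih =>
      intro hm h
      have := hJ.step hΛ hB (s := m / M) (ε := 1 / M) (by positivity) (by positivity)
        (by rw [← add_div, div_le_one hM0]; exact_mod_cast hm) hγ0 g2
        (by rw [hγ, hK, mul_assoc, one_div_mul_eq_div])
        (by rw [div_le_iff₀ hη] at hM2 ⊢
            rw [mul_one_div, div_mul_eq_mul_div, div_le_iff₀ hM0]; linarith)
        (exp_pos _).le (ih (Nat.le_of_succ_le hm)) h
      rw [← exp_add, ← exp_add, ← add_assoc, ← hD, ← add_div] at this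
      rwa [Nat.cast_succ, add_mul, one_mul, add_comm _ D]
  have := key M le_rfl h
  simp only [div_self hM0.ne', one_mul] at this
  refine this.mono (isw_pos J h) (exp_le_exp.2 ?_)
  have e : M * D = 16 * (1 + Λ) / η + (M * γ ^ 2) * (4 * γ ^ 2 + 34 * γ) := by
    rw [hD]; field_simp; ring
  rw [e, hγ, mul_div_cancel₀ _ hM0.ne', ← hγ]
  nlinarith [mul_nonneg (zero_le_one.trans hK1) hγ0]

end

end Vale.Agent.P150
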