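import Vale.Agent.P150.Defs
import Vale.Agent.P150.Tens
import Vale.Agent.P150.Mix

/-! The deterministic part of the theorem. -/

set_option linter.all false

namespace Vale.Agent.P150

open Finset Function Real

noncomputable section

variable {n : ℕ} {β η Λ : ℝ} {g : Pair n → ℝ}

/-- The interaction matrix. -/
def Jm (β : ℝ) (g : Pair n → ℝ) (i j : Fin n) : ℝ := β / √n * gsym g i j

lemma sp_eq : sp = spin := rfl

lemma gsym_symm (g : Pair n → ℝ) (i j : Fin n) : gsym g i j = gsym g j i := by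
  unfold gsym
  rcases lt_trichotomy i j with h | rfl | h
  · rw [dif_pos h, dif_neg h.not_gt, dif_pos h]
  · rfl
  · rw [dif_neg h.not_gt, dif_pos h, dif_pos h]

lemma gsym_diag (g : Pair n → ℝ) (i : Fin n) : gsym g i i = 0 := by simp [gsym]

lemma gsym_pair (g : Pair n → ℝ) (p : Pair n) : gsym g p.1.1 p.1.2 = g p := by
  rw [gsym, dif_pos p.2]

/-- Sums of symmetric functions over ordered pairs. -/
lemma sum_pairs (F : Fin n → Fin n → ℝ) (hd : ∀ i, F i i = 0) :
    ∑ i, ∑ j, F i j = ∑ p : Pair n, (F p.1.1 p.1.2 + F p.1.2 p.1.1) := by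
  have e : ∀ G : Fin n → Fin n → ℝ, ∑ p : Pair n, G p.1.1 p.1.2 =
      ∑ i, ∑ j, if i < j then G i j else 0 := fun G => by
    rw [← Fintype.sum_prod_type', ← sum_filter]
    exact (sum_subtype (p := fun p : Fin n × Fin n => p.1 < p.2) _ (by simp)
      fun p => G p.1 p.2).symm
  rw [sum_add_distrib, e, e fun i j => F j i, sum_comm (f := fun i j => if i < j then F j i else 0),
    ← sum_add_distrib]
  refine sum_congr rfl fun i _ => ?_
  rw [← sum_add_distrib]
  refine sum_congr rfl fun j _ => ?_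
  rcases lt_trichotomy i j with h | rfl | h
  · simp [h, h.not_gt]
  · simp [hd]
  · simp [h, h.not_gt]

lemma Jm_symm (i j : Fin n) : Jm β g i j = Jm β g j i := by rw [Jm, Jm, gsym_symm]

lemma Jm_diag (i : Fin n) : Jm β g i i = 0 := by rw [Jm, gsym_diag, mul_zero]

lemma ham_eq (x : Conf n) : ham β g x = en (Jm β g) (fun _ => 0) x := by
  rw [en, sum_pairs _ fun i => by rw [Jm_diag, zero_mul, zero_mul], ham, sum_div, mul_sum]
  simp only [zero_mul, sum_const_zero, add_zero]
  refine sum_congr rfl fun p _ => ?_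
  rw [Jm_symm p.1.2, Jm, gsym_pair, sp_eq]
  ring

lemma gibbs_eq (x : Conf n) :
    gibbs β g x = isw (Jm β g) (fun _ => 0) x / ∑ y, isw (Jm β g) (fun _ => 0) y := by
  simp only [gibbs, ham_eq, isw]

lemma heat_mulVec (i : Fin n) (f : Conf n → ℝ) :
    (heat β g i).mulVec f = Qw (isw (Jm β g) fun _ => 0) i f := by
  funext x
  have e1 : field β g i x = 0 + ∑ j, Jm β g i j * spin (x j) := by
    rw [field, sum_erase _ (by rw [gsym_diag, zero_mul]), mul_sum, zero_add]
    exact sum_congr rfl fun j _ => by rw [Jm, sp_eq, mul_assoc]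
  rw [Qw_isw Jm_symm Jm_diag, ← e1, Matrix.mulVec, dotProduct,
    sum_eq_add (update x i true) (update x i false)]
  · have e2 : ∀ b j, j ≠ i → update x i b j = x j := fun b j hj => update_of_ne hj _ _
    simp only [heat, if_pos (e2 _), update_self, sp_eq, spin_true, spin_false, one_mul, neg_mul]
    ring
  · intro h
    simpa using congrFun h i
  · rintro y - ⟨h1, h2⟩
    rw [heat, if_neg, zero_mul]
    intro hy
    have : y = update x i (y i) := by
      funext j
      by_cases hj : j = i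
      · simp [hj]
      · rw [update_of_ne hj, hy j hj]
    cases hb : y i
    · exact h2 (hb ▸ this)
    · exact h1 (hb ▸ this)
  · simp
  · simp

lemma form_eq (f : Conf n → ℝ) :
    form β g f = Dir (isw (Jm β g) fun _ => 0) f / ∑ y, isw (Jm β g) (fun _ => 0) y := by
  have e : ∀ x, (-gen β g).mulVec f x = ∑ i, Dw (isw (Jm β g) fun _ => 0) i f x := fun x => by
    simp only [gen, Matrix.neg_mulVec, Matrix.sum_mulVec, Matrix.sub_mulVec, Matrix.one_mulVec,
      heat_mulVec, Pi.neg_apply, Finset.sum_apply, Pi.sub_apply, Dw, ← sum_neg_distrib, neg_sub]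
  simp only [form, e, Dir, ← Ex_mul_Dw (isw_pos _ _), ← Ex_sum, ← mul_sum, gibbs_eq]
  rw [Ex, sum_div]
  exact sum_congr rfl fun x _ => by ring

lemma var_eq (f : Conf n → ℝ) :
    var β g f = Ex (isw (Jm β g) fun _ => 0) (fun x => (f x - av (isw (Jm β g) fun _ => 0) f) ^ 2) /
      ∑ y, isw (Jm β g) (fun _ => 0) y := by
  have e : ∑ y, gibbs β g y * f y = av (isw (Jm β g) fun _ => 0) f := by
    rw [av, Ex, sum_div]
    exact sum_congr rfl fun x _ => by rw [gibbs_eq]; ring
  rw [var, e, Ex, sum_div]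
  exact sum_congr rfl fun x _ => by rw [gibbs_eq]; ring

lemma Dir_sub (W : Conf n → ℝ) (hW : ∀ x, 0 < W x) (f : Conf n → ℝ) (c : ℝ) :
    Dir W (fun x => f x - c) = Dir W f := by
  simp only [Dir, Dw_eq hW, dd, sub_sub_sub_cancel_right]

lemma Good.var_le (hJ : Good (Jm β g) η) (f : Conf n → ℝ) : η / 2 * var β g f ≤ form β g f := by
  have hW := isw_pos (Jm β g) fun _ => 0
  have h1 := hJ.poincare (fun _ => 0) (g := fun x => f x - av (isw (Jm β g) fun _ => 0) f)
    (by rw [Ex_sub, Ex_const, Ex_eq_av hW, sub_self])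
  rw [var_eq, form_eq, ← mul_div_assoc, ← Dir_sub _ hW f]
  exact div_le_div_of_nonneg_right h1 (sumW_pos hW).le

lemma var_spin (i : Fin n) : var β g (fun x => spin (x i)) = 1 := by
  have hW := isw_pos (Jm β g) fun _ => 0
  have h1 : Ex (isw (Jm β g) fun _ => 0) (fun x => spin (x i)) = 0 := by
    have hs : ∀ b, spin (!b) = -spin b := fun b => by cases b <;> simp
    have hi : Involutive fun (x : Conf n) j => !x j := fun x => by simp
    have := Equiv.sum_comp hi.toPerm fun x => isw (Jm β g) (fun _ => 0) x * spin (x i)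
    simp only [Involutive.coe_toPerm, isw, en, hs, mul_neg, neg_mul, neg_neg, zero_mul,
      sum_neg_distrib, sum_const_zero, neg_zero] at this
    simp only [Ex, isw, en, zero_mul, sum_const_zero]
    linarith
  rw [var_eq, av, h1, zero_div]
  simp only [sub_zero, spin_sq, Ex_const, one_mul]
  exact div_self (sumW_pos hW).ne'

lemma form_spin (i : Fin n) : form β g (fun x => spin (x i)) ≤ 1 := by
  have hW := isw_pos (Jm β g) fun _ => 0
  rw [form_eq, div_le_one (sumW_pos hW), Dir, sum_eq_single i, Ex_Dw_sq hW]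
  · refine (Ex_mono hW (g := fun _ => 1) fun x => ?_).trans_eq (by rw [Ex_const, one_mul])
    norm_num [dd, sq_nonneg]
  · intro j _ hj
    rw [Ex_Dw_sq hW]
    simp [dd, update_of_ne hj.symm, Ex]
  · simp

lemma Good.gap (hJ : Good (Jm β g) η) (hn : 0 < n) : η / 2 ≤ gap β g ∧ gap β g ≤ 1 := by
  have h1 : ∀ r ∈ {r : ℝ | ∃ f : Conf n → ℝ, var β g f ≠ 0 ∧ r = form β g f / var β g f},
      η / 2 ≤ r := by
    rintro r ⟨f, hf, rfl⟩
    have hW := isw_pos (Jm β g) fun _ => 0
    have : 0 ≤ var β g f := by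
      rw [var_eq]; exact div_nonneg (Ex_nonneg hW fun _ => sq_nonneg _) (sumW_pos hW).le
    exact (le_div_iff₀ (this.lt_of_ne' hf)).2 (hJ.var_le f)
  have h2 : form β g (fun x => spin (x ⟨0, hn⟩)) ∈
      {r : ℝ | ∃ f : Conf n → ℝ, var β g f ≠ 0 ∧ r = form β g f / var β g f} :=
    ⟨fun x => spin (x ⟨0, hn⟩), by rw [var_spin]; exact one_ne_zero, by rw [var_spin, div_one]⟩
  exact ⟨le_csInf ⟨_, h2⟩ h1, (csInf_le ⟨_, h1⟩ h2).trans (form_spin _)⟩

lemma Good.tv (hJ : Good (Jm β g) η)
    (hl : ∀ u : Fin n → ℝ, -(1 * ∑ i, u i ^ 2) ≤ ∑ i, ∑ j, Jm β g i j * u i * u j) (hn : 2 ≤ n)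
    {t : ℝ} (ht : 20 * exp (32 / η + 1) * log n ≤ t) (x : Conf n) : tv β g t x ≤ 1 / 4 := by
  haveI : Nonempty (Fin n) := ⟨⟨0, by omega⟩⟩
  have hW := isw_pos (Jm β g) fun _ => 0
  have hη := hJ.pos
  have hn' : (2 : ℝ) ≤ n := by exact_mod_cast hn
  have hA : 1 ≤ exp (32 / η + 1) := one_le_exp (by positivity)
  have hlog : log 2 ≤ log n := log_le_log two_pos hn'
  have hl2 := log_two_gt_d9
  have h1 := hJ.at zero_le_one hl fun _ => 0
  rw [show (16 * (1 + 1) : ℝ) = 32 by norm_num] at h1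
  have e1 : ∀ y : Conf n, ∑ i, spin (y i) ^ 2 = n := fun y => by simp [spin_sq]
  have h2 : log ((∑ y, isw (Jm β g) (fun _ => 0) y) / isw (Jm β g) (fun _ => 0) x) ≤ 2 * n := by
    rw [log_le_iff_le_exp (div_pos (sumW_pos hW) (hW x)), div_le_iff₀ (hW x)]
    have a1 : ∀ y, isw (Jm β g) (fun _ => 0) y ≤ exp n * isw (Jm β g) (fun _ => 0) x := fun y => by
      have b1 := hJ.quad fun i => spin (y i)
      have b2 := hl fun i => spin (x i)
      rw [e1] at b1 b2
      simp only [isw, en, ← exp_add, exp_le_exp, zero_mul, sum_const_zero]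
      nlinarith
    refine (sum_le_sum fun y _ => a1 y).trans ?_
    rw [sum_const, card_univ, Fintype.card_fun, Fintype.card_bool, Fintype.card_fin, nsmul_eq_mul,
      two_mul, exp_add, mul_assoc]
    refine mul_le_mul_of_nonneg_right ?_ (by have := hW x; positivity)
    rw [← mul_one (n : ℝ), exp_nat_mul]
    push_cast
    exact pow_le_pow_left₀ two_pos.le (by linarith [add_one_le_exp (1 : ℝ)]) n
  have h3 := tv_le hW hA h1 x h2 heat_mulVec (t := t) (le_trans (by
    have := log_nonneg (by linarith : (1 : ℝ) ≤ n); positivity) ht)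
  simp only [← gibbs_eq] at h3
  have h4 : exp (-(t / (2 * exp (32 / η + 1)))) ≤ 1 / (n : ℝ) ^ 10 := by
    rw [one_div, ← exp_log (by positivity : (0 : ℝ) < n ^ 10), ← exp_neg, exp_le_exp, neg_le_neg_iff,
      log_pow, le_div_iff₀ (by positivity)]
    push_cast
    linarith
  have h5 : √(2 * n) ≤ n := sqrt_le_iff.2 ⟨by positivity, by nlinarith⟩
  have h6 : 4 * (n : ℝ) * (1 / n ^ 10) ≤ 1 / 2 := by
    rw [mul_one_div, div_le_iff₀ (by positivity), pow_succ]
    have := pow_le_pow_left₀ two_pos.le hn' 9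
    nlinarith
  have h7 := mul_le_mul (mul_le_mul_of_nonneg_left h5 (by norm_num : (0 : ℝ) ≤ 4)) h4
    (exp_pos _).le (by positivity)
  unfold P150.tv kern gen
  linarith

end

end Vale.Agent.P150
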