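import Vale.Agent.P150.Gauss

/-! The upper edge of a Gaussian orthogonal matrix. -/

set_option linter.all false

namespace Vale.Agent.P150

open Finset Function Real MeasureTheory ProbabilityTheory Matrix

noncomputable section

variable {ι : Type} [Fintype ι] [DecidableEq ι]

/-- The matrix of an array. -/
def mat (A : ι × ι → ℝ) : Matrix ι ι ℝ := fun i j => A (i, j)

/-- The good event of the induction. -/
def Edge (z r : ℝ) (A : ι × ι → ℝ) (u : ι → ℝ) : Prop :=
  ∀ v : ι → ℝ, √2 * (v ⬝ᵥ mat A *ᵥ v) ≤ z * (v ⬝ᵥ v) - r * (u ⬝ᵥ v) ^ 2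

lemma householder (u : ι → ℝ) (i : ι) :
    ∃ H : Matrix ι ι ℝ, Hᵀ = H ∧ H * H = 1 ∧ H *ᵥ u = √(u ⬝ᵥ u) • Pi.single i 1 := by
  obtain ⟨d, hd⟩ : ∃ d : ι → ℝ, d = u - √(u ⬝ᵥ u) • Pi.single i 1 := ⟨_, rfl⟩
  have h0 : 0 ≤ u ⬝ᵥ u := sum_nonneg fun _ _ => mul_self_nonneg _
  have h1 : d ⬝ᵥ d = 2 * (d ⬝ᵥ u) := by
    have := mul_self_sqrt h0
    simp only [hd, sub_dotProduct, dotProduct_sub, smul_dotProduct, dotProduct_smul, single_dotProduct,
      dotProduct_single, Pi.single_eq_same, smul_eq_mul, mul_one, one_mul, Pi.sub_apply,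
      Pi.smul_apply]
    linarith
  refine ⟨1 - (2 / (d ⬝ᵥ d)) • vecMulVec d d, by simp, ?_, ?_⟩
  · have e : 2 / (d ⬝ᵥ d) * (2 / (d ⬝ᵥ d) * (d ⬝ᵥ d)) = 2 / (d ⬝ᵥ d) + 2 / (d ⬝ᵥ d) := by
      rcases eq_or_ne (d ⬝ᵥ d) 0 with h | h
      · simp [h]
      · field_simp; norm_num
    simp only [sub_mul, mul_sub, one_mul, mul_one, smul_mul_assoc, mul_smul_comm,
      vecMulVec_mul_vecMulVec, vecMulVec_smul, smul_sub, smul_smul, e, add_smul]
    abel
  · rw [sub_mulVec, one_mulVec, smul_mulVec, vecMulVec_mulVec, op_smul_eq_smul, smul_smul]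
    rcases eq_or_ne (d ⬝ᵥ d) 0 with h | h
    · rw [h, div_zero, zero_mul, zero_smul, sub_zero, ← sub_eq_zero, ← hd]
      exact dotProduct_self_eq_zero.1 h
    · have e : 2 / (d ⬝ᵥ d) * (d ⬝ᵥ u) = 1 := by rw [div_mul_eq_mul_div, ← h1, div_self h]
      rw [e, one_smul, hd, sub_sub_cancel]

lemma mp_rot {H : Matrix ι ι ℝ} (h1 : Hᵀ = H) (h2 : H * H = 1) :
    MeasurePreserving (fun (A : ι × ι → ℝ) (p : ι × ι) => (H * mat A * H) p.1 p.2)
      (gm (ι × ι)) (gm (ι × ι)) := by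
  have ip : ∀ X Y : Matrix ι ι ℝ, ∑ p : ι × ι, X p.1 p.2 * Y p.1 p.2 = trace (Xᵀ * Y) := fun X Y => by
    rw [Fintype.sum_prod_type_right]
    rfl
  have ad : ∀ X Y : Matrix ι ι ℝ, trace (Xᵀ * (H * Y * H)) = trace ((H * X * H)ᵀ * Y) := fun X Y => by
    simp only [transpose_mul, h1, ← Matrix.mul_assoc]
    rw [trace_mul_comm]
    simp only [← Matrix.mul_assoc]
  refine mp_gm (Continuous.measurable ?_) fun θ =>
    ⟨fun p => (H * mat θ * H) p.1 p.2, fun A => ?_, ?_⟩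
  · simp only [mul_apply, mat]
    fun_prop
  · exact (ip (mat θ) _).trans ((ad _ _).trans (ip _ (mat A)).symm)
  · simp only [sq]
    rw [ip, ← ad]
    simp only [← Matrix.mul_assoc, h2, Matrix.one_mul]
    rw [Matrix.mul_assoc _ H H, h2, Matrix.mul_one]
    exact (ip (mat θ) (mat θ)).symm

lemma edge_rot {z r : ℝ} (hr : 0 ≤ r) {u : ι → ℝ} (hu : u ⬝ᵥ u ≤ 1) (i : ι) :
    gm (ι × ι) {A | ¬ Edge z r A u} ≤ gm (ι × ι) {A | ¬ Edge z r A (Pi.single i 1)} := by
  obtain ⟨H, h1, h2, h3⟩ := householder u i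
  refine le_of_mp (mp_rot h1 h2) fun A hA hE => hA fun v => ?_
  have iso : ∀ a b, (H *ᵥ a) ⬝ᵥ (H *ᵥ b) = a ⬝ᵥ b := fun a b => by
    rw [dotProduct_mulVec, ← mulVec_transpose, h1, mulVec_mulVec, h2, one_mulVec]
  have h4 := hE (H *ᵥ v)
  rw [show mat (fun p : ι × ι => (H * mat A * H) p.1 p.2) = H * mat A * H from rfl, mulVec_mulVec,
    Matrix.mul_assoc _ H H, h2, Matrix.mul_one, ← mulVec_mulVec, iso, iso] at h4
  rw [← iso u, h3, smul_dotProduct, smul_eq_mul, mul_pow,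
    sq_sqrt (show 0 ≤ u ⬝ᵥ u from sum_nonneg fun _ _ => mul_self_nonneg _)]
  have h5 := mul_le_mul_of_nonneg_left (mul_le_of_le_one_left
    (sq_nonneg (Pi.single i 1 ⬝ᵥ H *ᵥ v)) hu) hr
  exact h4.trans (sub_le_sub_left h5 _)

lemma mp_split (n : ℕ) :
    MeasurePreserving (fun A : Fin (n + 1) × Fin (n + 1) → ℝ =>
      ((fun i : Fin n => (A (0, i.succ) + A (i.succ, 0)) / √2),
        fun p : Fin n × Fin n => A (p.1.succ, p.2.succ)))
      (gm _) ((gm (Fin n)).prod (gm (Fin n × Fin n))) := by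
  have h := mp_gm (T := fun (A : Fin (n + 1) × Fin (n + 1) → ℝ) =>
    Sum.elim (fun i : Fin n => (A (0, i.succ) + A (i.succ, 0)) / √2)
      fun p : Fin n × Fin n => A (p.1.succ, p.2.succ))
    (measurable_pi_lambda _ fun a => by rcases a with a | a <;> simp only [Sum.elim_inl, Sum.elim_inr] <;> fun_prop)
    fun θ => ⟨fun p => Fin.cases (Fin.cases 0 (fun j => θ (.inl j) / √2) p.2)
      (fun i => Fin.cases (θ (.inl i) / √2) (fun j => θ (.inr (i, j))) p.2) p.1, fun A => ?_, ?_⟩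
  · exact (measurePreserving_sumPiEquivProdPi fun _ => gaussianReal 0 1).comp h
  · simp only [Fintype.sum_prod_type, Fin.sum_univ_succ, Fintype.sum_sum_type, Fin.cases_zero,
      Fin.cases_succ, Sum.elim_inl, Sum.elim_inr, zero_mul, zero_add, sum_add_distrib, ← add_assoc]
    congr 1
    rw [← sum_add_distrib]
    exact sum_congr rfl fun i _ => by ring
  · simp only [Fintype.sum_prod_type, Fin.sum_univ_succ, Fintype.sum_sum_type, Fin.cases_zero,
      Fin.cases_succ, div_pow, sq_sqrt zero_le_two, sum_add_distrib, ← sum_div]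
    ring

theorem edge {ε : ℝ} (h0 : 0 < ε) (h1 : ε ≤ 1) {N : ℕ} (hN : 0 < N) (n : ℕ) (hn : n ≤ N)
    (u : Fin n → ℝ) (hu : u ⬝ᵥ u ≤ 1) :
    gm (Fin n × Fin n) {A | ¬ Edge ((2 + 3 * ε) * √N) √N A u} ≤ n * (2 * tl ε N) := by
  have hN' : (0 : ℝ) < N := by exact_mod_cast hN
  have hr := sqrt_pos.2 hN'
  have hr2 := sq_sqrt hN'.le
  induction n with
  | zero => simp [Edge]
  | succ n ih =>
    refine (edge_rot hr.le hu 0).trans ?_
    obtain ⟨c, c0, hc⟩ : ∃ c : ℝ, 0 < c ∧ c ^ 2 = (1 + ε) * N :=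
      ⟨√((1 + ε) * N), by positivity, sq_sqrt (by positivity)⟩
    let S : Set ((Fin n → ℝ) × (Fin n × Fin n → ℝ)) :=
      {y | (1 + ε) * N ≤ ∑ i, y.1 i ^ 2} ∪
        ({y | ∑ i, y.1 i ^ 2 ≤ (1 + ε) * N} \ {y | Edge ((2 + 3 * ε) * √N) √N y.2 (c⁻¹ • y.1)})
    have hS : (gm (Fin n)).prod (gm (Fin n × Fin n)) S ≤ tl ε N + n * (2 * tl ε N) := by
      refine (measure_union_le _ _).trans (add_le_add ?_ ?_)
      · exact (le_of_mp measurePreserving_fst fun y hy => hy).trans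
          (chi_sum univ h0.le h1 (by simp; omega))
      · rw [Measure.prod_apply]
        · refine (lintegral_mono (g := fun _ => n * (2 * tl ε N)) fun b => ?_).trans_eq (by simp)
          by_cases hb : ∑ i, b i ^ 2 ≤ (1 + ε) * N
          · refine le_trans (measure_mono fun A hA => hA.2) (ih (by omega) (c⁻¹ • b) ?_)
            rw [smul_dotProduct, dotProduct_smul, smul_eq_mul, smul_eq_mul, ← mul_assoc, ← sq,
              inv_pow, hc, inv_mul_le_one₀ (by positivity)]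
            simpa only [dotProduct, sq] using hb
          · exact le_trans (measure_mono (t := ∅) fun A hA => hb hA.1) (by simp)
        · refine (isClosed_le (by fun_prop) (by fun_prop)).measurableSet.diff
            (IsClosed.measurableSet ?_)
          simp only [Edge, Set.setOf_forall]
          refine isClosed_iInter fun v => isClosed_le ?_ ?_
          · simp only [dotProduct, mulVec, mat]; fun_prop
          · simp only [dotProduct, Pi.smul_apply, smul_eq_mul]; fun_prop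
    refine le_trans (measure_mono (t := {A | ε ^ 2 * N ≤ A (0, 0) ^ 2} ∪ _ ⁻¹' S) fun A hA => ?_)
      ((measure_union_le _ _).trans ((add_le_add (chi_one _ ε N)
        (((mp_split n).measure_preimage_le S).trans hS)).trans_eq (by push_cast; ring)))
    by_contra hc'
    simp only [S, Set.mem_union, Set.mem_setOf_eq, Set.mem_preimage, Set.mem_diff, not_or, not_and,
      not_not, not_le] at hc'
    obtain ⟨a1, a2, a3⟩ := hc'
    refine hA fun v => ?_
    have a4 := a3 a2.le fun i => v i.succ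
    have a5 : √2 * A (0, 0) ≤ 2 * ε * √N := by
      refine (abs_le_of_sq_le_sq' ?_ (by positivity)).2
      rw [mul_pow, sq_sqrt zero_le_two, mul_pow, hr2]
      nlinarith [sq_nonneg (A (0, 0))]
    obtain ⟨t, ht⟩ : ∃ t, t = (c⁻¹ • fun i : Fin n => (A (0, i.succ) + A (i.succ, 0)) / √2) ⬝ᵥ
      fun i => v i.succ := ⟨_, rfl⟩
    rw [← ht] at a4
    have a6 : √2 * (v ⬝ᵥ mat A *ᵥ v) = √2 * A (0, 0) * v 0 ^ 2 + 2 * c * t * v 0 +
        √2 * ((fun i : Fin n => v i.succ) ⬝ᵥ (mat fun p : Fin n × Fin n =>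
          A (p.1.succ, p.2.succ)) *ᵥ fun i => v i.succ) := by
      have b1 : 2 * c * t = √2 * ∑ i : Fin n, (A (0, i.succ) + A (i.succ, 0)) * v i.succ := by
        rw [ht, smul_dotProduct, smul_eq_mul, mul_assoc, mul_inv_cancel_left₀ c0.ne', dotProduct,
          mul_sum, mul_sum]
        refine sum_congr rfl fun i _ => ?_
        nth_rewrite 1 [← mul_self_sqrt zero_le_two]
        field_simp
      rw [b1]
      simp only [dotProduct, mulVec, mat, Fin.sum_univ_succ, mul_add, add_mul, sum_add_distrib,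
        mul_sum, sum_mul]
      have b2 : ∑ i : Fin n, √2 * (v 0 * (A (0, i.succ) * v i.succ)) =
          ∑ i : Fin n, √2 * (A (0, i.succ) * v i.succ) * v 0 := sum_congr rfl fun i _ => by ring
      have b3 : ∑ i : Fin n, √2 * (v i.succ * (A (i.succ, 0) * v 0)) =
          ∑ i : Fin n, √2 * (A (i.succ, 0) * v i.succ) * v 0 := sum_congr rfl fun i _ => by ring
      rw [b2, b3]
      ring
    have a7 : v ⬝ᵥ v = v 0 ^ 2 + (fun i : Fin n => v i.succ) ⬝ᵥ fun i => v i.succ := by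
      simp only [dotProduct, Fin.sum_univ_succ, sq]
    have a8 : 2 * c * t * v 0 ≤ √N * t ^ 2 + (1 + ε) * √N * v 0 ^ 2 := by
      refine le_of_mul_le_mul_left ?_ hr
      have b1 : √N * (√N * t ^ 2 + (1 + ε) * √N * v 0 ^ 2) - √N * (2 * c * t * v 0) =
          (√N * t - c * v 0) ^ 2 := by linear_combination (1 + ε) * v 0 ^ 2 * hr2 - v 0 ^ 2 * hc
      linarith [sq_nonneg (√N * t - c * v 0)]
    rw [a6, a7, single_dotProduct, one_mul]
    nlinarith [mul_le_mul_of_nonneg_right a5 (sq_nonneg (v 0))]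

end

end Vale.Agent.P150
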