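import Vale.Agent.P150.Basic

/-! Relative entropy on the cube. -/

set_option linter.all false

namespace Vale.Agent.P150

open Finset Function Real

noncomputable section

/-- The entropy integrand. -/
def Ph (a b : ℝ) : ℝ := a * log a - a * log b - a + b

lemma young {a b : ℝ} (ha : 0 < a) (hb : 0 < b) (u : ℝ) : a * u - b * (exp u - 1) ≤ Ph a b := by
  have h1 := add_one_le_exp (u - (log a - log b))
  rw [exp_sub, exp_sub, exp_log ha, exp_log hb, div_div_eq_mul_div, le_div_iff₀ ha] at h1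
  unfold Ph
  linarith

lemma Ph_nonneg {a b : ℝ} (ha : 0 < a) (hb : 0 < b) : 0 ≤ Ph a b := by
  simpa using young ha hb 0

lemma Ph_le {a b : ℝ} (ha : 0 < a) (hb : 0 < b) : Ph a b ≤ (a - b) ^ 2 / b := by
  have h1 := log_le_sub_one_of_pos (div_pos ha hb)
  rw [log_div ha.ne' hb.ne'] at h1
  have h2 := mul_le_mul_of_nonneg_left h1 ha.le
  have h3 : (a - b) ^ 2 / b = a * (a / b - 1) - a + b := by field_simp; ring
  unfold Ph
  linarith

lemma sq_le_Ph {a b : ℝ} (ha : 0 < a) (hb : 0 < b) : (a - b) ^ 2 ≤ Ph a b * (2 * (a + b)) := by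
  obtain ⟨p, hp, rfl⟩ : ∃ p, 0 < p ∧ a = p ^ 2 := ⟨√a, sqrt_pos.2 ha, (sq_sqrt ha.le).symm⟩
  obtain ⟨q, hq, rfl⟩ : ∃ q, 0 < q ∧ b = q ^ 2 := ⟨√b, sqrt_pos.2 hb, (sq_sqrt hb.le).symm⟩
  have h1 := log_le_sub_one_of_pos (div_pos hq hp)
  rw [log_div hq.ne' hp.ne'] at h1
  have h2 := mul_le_mul_of_nonneg_left h1 ha.le
  have h3 : p ^ 2 * (q / p - 1) = p * q - p ^ 2 := by field_simp
  have h4 : (p - q) ^ 2 ≤ Ph (p ^ 2) (q ^ 2) := by
    unfold Ph
    rw [log_pow, log_pow]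
    push_cast
    nlinarith
  calc _ = (p - q) ^ 2 * (p + q) ^ 2 := by ring
    _ ≤ _ := mul_le_mul h4 (by nlinarith [sq_nonneg (p - q)]) (sq_nonneg _) ((sq_nonneg _).trans h4)

variable {ι : Type} [Fintype ι] [DecidableEq ι]

/-- The mean. -/
def av (W f : (ι → Bool) → ℝ) : ℝ := Ex W f / ∑ x, W x

/-- The entropy. -/
def Ent (W f : (ι → Bool) → ℝ) : ℝ := Ex W fun x => Ph (f x) (av W f)

variable {W f : (ι → Bool) → ℝ}

lemma av_pos (hW : ∀ x, 0 < W x) (hf : ∀ x, 0 < f x) : 0 < av W f :=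
  div_pos (Ex_pos hW hf) (sumW_pos hW)

lemma Ex_eq_av (hW : ∀ x, 0 < W x) (f : (ι → Bool) → ℝ) : Ex W f = av W f * ∑ x, W x :=
  (div_mul_cancel₀ _ (sumW_pos hW).ne').symm

lemma Ent_nonneg (hW : ∀ x, 0 < W x) (hf : ∀ x, 0 < f x) : 0 ≤ Ent W f :=
  Ex_nonneg hW fun x => Ph_nonneg (hf x) (av_pos hW hf)

lemma Ex_Ph (hW : ∀ x, 0 < W x) (f : (ι → Bool) → ℝ) (t : ℝ) :
    Ex W (fun x => Ph (f x) t) = Ent W f + (∑ x, W x) * Ph (av W f) t := by
  have e : ∀ x, Ph (f x) t = Ph (f x) (av W f) + ((log (av W f) - log t) * f x + (t - av W f)) :=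
    fun x => by unfold Ph; ring
  simp only [e, Ex_add, Ex_mul, Ex_const]
  rw [Ent, Ex_eq_av hW f, Ph]
  ring

lemma Ent_le (hW : ∀ x, 0 < W x) (hf : ∀ x, 0 < f x) {t : ℝ} (ht : 0 < t) :
    Ent W f ≤ Ex W fun x => Ph (f x) t := by
  rw [Ex_Ph hW]
  exact le_add_of_nonneg_right (mul_nonneg (sumW_pos hW).le (Ph_nonneg (av_pos hW hf) ht))

lemma dv (hW : ∀ x, 0 < W x) (hf : ∀ x, 0 < f x) {u : (ι → Bool) → ℝ}
    (hu : Ex W (fun x => exp (u x)) ≤ ∑ x, W x) : Ex W (fun x => f x * u x) ≤ Ent W f := by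
  have h1 := Ex_mono hW fun x => young (hf x) (av_pos hW hf) (u x)
  rw [Ex_sub, Ex_mul, Ex_sub, Ex_const, one_mul] at h1
  have h2 := mul_nonpos_of_nonneg_of_nonpos (av_pos hW hf).le (sub_nonpos.2 hu)
  unfold Ent
  linarith

lemma pinsker (hW : ∀ x, 0 < W x) (hf : ∀ x, 0 < f x) :
    Ex W (fun x => |f x - av W f|) ^ 2 ≤ Ent W f * (4 * (av W f * ∑ x, W x)) := by
  have ha := av_pos hW hf
  have h1 := sum_sq_le_sum_mul_sum_of_sq_le_mul univ (r := fun x => W x * |f x - av W f|)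
    (f := fun x => W x * Ph (f x) (av W f)) (g := fun x => W x * (2 * (f x + av W f)))
    (fun x _ => mul_nonneg (hW x).le (Ph_nonneg (hf x) ha))
    (fun x _ => mul_nonneg (hW x).le (by have := hf x; positivity)) fun x _ => by
      have := mul_le_mul_of_nonneg_left (sq_le_Ph (hf x) ha) (sq_nonneg (W x))
      rw [mul_pow, sq_abs]
      linarith
  have h2 : Ex W (fun x => 2 * (f x + av W f)) = 4 * (av W f * ∑ x, W x) := by
    rw [Ex_mul, Ex_add, Ex_const, Ex_eq_av hW f]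
    ring
  rw [← h2]
  exact h1

/-- Approximate tensorisation of entropy. -/
def AT (W : (ι → Bool) → ℝ) (A : ℝ) : Prop :=
  ∀ (f : (ι → Bool) → ℝ) (g : ι → (ι → Bool) → ℝ), (∀ x, 0 < f x) → (∀ i x, 0 < g i x) →
    (∀ i, Ind i (g i)) → Ent W f ≤ A * ∑ i, Ex W fun x => Ph (f x) (g i x)

lemma AT.mono (hW : ∀ x, 0 < W x) {A A' : ℝ} (h : AT W A) (hA : A ≤ A') : AT W A' :=
  fun f g hf hg hi => (h f g hf hg hi).trans (mul_le_mul_of_nonneg_right hA
    (sum_nonneg fun i _ => Ex_nonneg hW fun x => Ph_nonneg (hf x) (hg i x)))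

lemma AT.perturb {W' : (ι → Bool) → ℝ} (hW : ∀ x, 0 < W x) (hW' : ∀ x, 0 < W' x) {A E : ℝ}
    (hA : 0 ≤ A) (hE : 0 ≤ E) (h : AT W A) (h1 : ∀ x, W x ≤ W' x) (h2 : ∀ x, W' x ≤ E * W x) :
    AT W' (E * A) := by
  intro f g hf hg hi
  have ha := av_pos hW hf
  calc Ent W' f ≤ Ex W' fun x => Ph (f x) (av W f) := Ent_le hW' hf ha
    _ ≤ E * Ent W f := by
        rw [Ent, Ex, Ex, mul_sum]
        exact sum_le_sum fun x _ => by
          rw [← mul_assoc]; exact mul_le_mul_of_nonneg_right (h2 x) (Ph_nonneg (hf x) ha)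
    _ ≤ E * (A * ∑ i, Ex W fun x => Ph (f x) (g i x)) := mul_le_mul_of_nonneg_left (h f g hf hg hi) hE
    _ ≤ _ := by
        rw [mul_assoc]
        refine mul_le_mul_of_nonneg_left (mul_le_mul_of_nonneg_left (sum_le_sum fun i _ =>
          sum_le_sum fun x _ => ?_) hA) hE
        exact mul_le_mul_of_nonneg_right (h1 x) (Ph_nonneg (hf x) (hg i x))

/-- Subadditivity of entropy for product weights. -/
theorem AT_prod (hW : ∀ x, 0 < W x)
    (hp : ∀ i j (F : (ι → Bool) → ℝ), Ind j F → Ind j (Qw W i F)) : AT W 1 := by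
  intro f g hf hg hi
  have key : ∀ s : Finset ι, ∃ F : (ι → Bool) → ℝ, (∀ x, 0 < F x) ∧ (∀ i ∈ s, Ind i F) ∧
      Ex W F = Ex W f ∧ Ex W (fun x => f x * (log (f x) - log (F x))) ≤
        ∑ i ∈ s, Ex W fun x => Ph (f x) (g i x) := by
    intro s
    induction s using Finset.induction_on with
    | empty => exact ⟨f, hf, by simp, rfl, by simp [Ex]⟩
    | insert a s ha ih =>
      obtain ⟨F, h1, h2, h3, h4⟩ := ih
      have h5 : ∀ x, 0 < Qw W a F x := Qw_pos hW h1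
      refine ⟨Qw W a F, h5, fun i hi => ?_, by rw [Ex_Qw hW, h3], ?_⟩
      · rcases mem_insert.1 hi with rfl | hi
        · exact ind_Qw W i F
        · exact hp a i F (h2 i hi)
      have h6 := Ex_mono hW fun x => young (hf x) (hg a x) (log (F x) - log (Qw W a F x))
      have h7 : Ex W (fun x => g a x * (exp (log (F x) - log (Qw W a F x)) - 1)) = 0 := by
        have h8 := Ex_ind_Dw hW (g := fun x => g a x / Qw W a F x) (i := a)
          (fun x b => by simp only [hi a x b, ind_Qw W a F x b]) F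
        rw [← h8]
        refine Ex_congr fun x => ?_
        have := (h5 x).ne'
        rw [exp_sub, exp_log (h1 x), exp_log (h5 x), Dw]
        field_simp
      rw [Ex_sub, h7, sub_zero] at h6
      rw [sum_insert ha]
      refine le_trans (le_of_eq ?_) (add_le_add h6 h4)
      rw [← Ex_add]
      exact Ex_congr fun x => by ring
  obtain ⟨F, h1, h2, h3, h4⟩ := key univ
  have h5 : ∀ x, F x = av W f := fun x => by
    rw [av, ← h3, eq_div_iff (sumW_pos hW).ne', ← Ex_const]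
    exact Ex_congr fun y => const_of_ind (fun i => h2 i (mem_univ _)) x y
  rw [one_mul]
  refine le_trans (le_of_eq ?_) h4
  have e : ∀ x, Ph (f x) (av W f) = f x * (log (f x) - log (F x)) + (av W f - f x) := fun x => by
    rw [h5, Ph]; ring
  simp only [Ent, e, Ex_add, Ex_sub, Ex_const]
  rw [Ex_eq_av hW f, sub_self, add_zero]

end

end Vale.Agent.P150
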