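import Vale.Agent.P150.Det
import Vale.Agent.P150.Edge

/-! The disorder is good with high probability. -/

set_option linter.all false

namespace Vale.Agent.P150

open Finset Function Real MeasureTheory ProbabilityTheory Filter Topology

noncomputable section

variable {n : ℕ} {ε : ℝ}

/-- Upper bound of the quadratic form. -/
def Up (ε : ℝ) (g : Pair n → ℝ) : Prop :=
  ∀ u : Fin n → ℝ, ∑ i, ∑ j, gsym g i j * u i * u j ≤ (2 + 5 * ε) * √n * ∑ i, u i ^ 2

lemma quad_eq (g : Pair n → ℝ) (u : Fin n → ℝ) :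
    ∑ i, ∑ j, gsym g i j * u i * u j = ∑ p : Pair n, 2 * g p * (u p.1.1 * u p.1.2) := by
  rw [sum_pairs _ fun i => by rw [gsym_diag, zero_mul, zero_mul]]
  refine sum_congr rfl fun p _ => ?_
  rw [gsym_symm g p.1.2, gsym_pair]
  ring

lemma mp_sym (n : ℕ) : MeasurePreserving
    (fun (A : Fin n × Fin n → ℝ) (p : Pair n) => (A (p.1.1, p.1.2) + A (p.1.2, p.1.1)) / √2)
    (gm _) (gm (Pair n)) := by
  refine mp_gm (by fun_prop) fun θ => ⟨fun q => gsym θ q.1 q.2 / √2, fun A => ?_, ?_⟩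
  · rw [Fintype.sum_prod_type, sum_pairs _ fun i => by simp [gsym_diag]]
    refine sum_congr rfl fun p _ => ?_
    dsimp only
    rw [gsym_symm θ p.1.2, gsym_pair]
    ring
  · rw [Fintype.sum_prod_type, sum_pairs _ fun i => by simp [gsym_diag]]
    refine sum_congr rfl fun p _ => ?_
    dsimp only
    rw [gsym_symm θ p.1.2, gsym_pair, div_pow, sq_sqrt zero_le_two]
    ring

lemma union_le {X κ : Type} [MeasurableSpace X] [Fintype κ] (μ : Measure X) {s : κ → X → Prop}
    {b : ENNReal} (h : ∀ k, μ {x | s k x} ≤ b) : μ {x | ∃ k, s k x} ≤ Fintype.card κ * b := by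
  rw [Set.setOf_exists]
  refine (measure_iUnion_fintype_le _ _).trans ((sum_le_sum fun k _ => h k).trans_eq ?_)
  rw [sum_const, card_univ, nsmul_eq_mul]

lemma up_le (h0 : 0 < ε) (h1 : ε ≤ 1) (hn : 0 < n) :
    gm (Pair n) {g | ¬ Up ε g} ≤ n * (2 * tl ε n) + n * tl ε n := by
  have hm : MeasurableSet {g : Pair n → ℝ | ¬ Up ε g} := by
    refine (IsClosed.measurableSet (s := {g | Up ε g}) ?_).compl
    simp only [Up, quad_eq, Set.setOf_forall]
    exact isClosed_iInter fun u => isClosed_le (by fun_prop) (by fun_prop)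
  rw [← (mp_sym n).measure_preimage hm.nullMeasurableSet]
  have h2 := union_le (gm (Fin n × Fin n)) fun i => chi_one (i, i) ε n
  rw [Fintype.card_fin] at h2
  refine le_trans (measure_mono fun A hA => ?_) ((measure_union_le _ _).trans
    (add_le_add (edge h0 h1 hn n le_rfl 0 (by simp)) h2))
  by_contra hc
  simp only [Set.mem_union, Set.mem_setOf_eq, not_or, not_not, not_exists, not_le] at hc
  refine hA fun u => ?_
  have a1 := hc.1 u
  have a2 : ∀ i, -(√2 * A (i, i)) ≤ 2 * ε * √n := fun i => by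
    refine neg_le.1 (abs_le_of_sq_le_sq' ?_ (by positivity)).1
    rw [mul_pow, sq_sqrt zero_le_two, mul_pow, sq_sqrt (Nat.cast_nonneg n)]
    nlinarith [sq_nonneg (A (i, i)), hc.2 i]
  have a3 : ∑ i, -(√2 * A (i, i)) * u i ^ 2 ≤ 2 * ε * √n * ∑ i, u i ^ 2 := by
    rw [mul_sum]
    exact sum_le_sum fun i _ => mul_le_mul_of_nonneg_right (a2 i) (sq_nonneg _)
  have a4 : ∑ p : Pair n, 2 * ((A (p.1.1, p.1.2) + A (p.1.2, p.1.1)) / √2) * (u p.1.1 * u p.1.2) =
      √2 * (u ⬝ᵥ (mat A).mulVec u) + ∑ i, -(√2 * A (i, i)) * u i ^ 2 := by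
    have b1 := sum_pairs (fun i j => √2 * (u i * (A (i, j) * u j)) +
      if i = j then -(√2 * A (i, i)) * u i ^ 2 else 0) fun i => by rw [if_pos rfl]; ring
    simp only [sum_add_distrib, sum_ite_eq, mem_univ, if_true] at b1
    simp only [dotProduct, Matrix.mulVec, mat, mul_sum]
    rw [b1]
    simp only [← sum_add_distrib]
    refine sum_congr rfl fun p _ => ?_
    rw [if_neg p.2.ne, if_neg p.2.ne']
    nth_rewrite 1 [← mul_self_sqrt zero_le_two]
    field_simp
    ring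
  rw [quad_eq, a4]
  simp only [zero_dotProduct, dotProduct, ← sq] at a1 ⊢
  simp only [Pi.zero_apply, zero_mul, sum_const_zero] at a1
  linarith

lemma row_eq (g : Pair n → ℝ) (i : Fin n) :
    ∑ j, gsym g i j ^ 2 = ∑ p ∈ univ.filter fun p : Pair n => p.1.1 = i ∨ p.1.2 = i, g p ^ 2 := by
  have b1 := sum_pairs (fun a b => if a = i then gsym g a b ^ 2 else 0) fun a => by simp [gsym_diag]
  simp only [sum_ite_irrel, sum_const_zero, sum_ite_eq', mem_univ, if_true] at b1
  rw [b1, sum_filter]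
  refine sum_congr rfl fun p _ => ?_
  rw [gsym_symm g p.1.2, gsym_pair]
  by_cases h1 : p.1.1 = i <;> by_cases h2 : p.1.2 = i
  · exact absurd (h1.trans h2.symm) p.2.ne
  all_goals simp [h1, h2]

lemma row_le (h0 : 0 < ε) (h1 : ε ≤ 1) (i : Fin n) :
    gm (Pair n) {g | (1 + ε) * n ≤ ∑ j, gsym g i j ^ 2} ≤ tl ε n := by
  simp only [row_eq]
  refine chi_sum _ h0.le h1 ?_
  have h2 := row_eq (fun _ => 1) i
  have h3 : ∑ j, gsym (fun _ => 1) i j ^ 2 ≤ ∑ j : Fin n, (1 : ℝ) := sum_le_sum fun j _ => by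
    unfold gsym
    split_ifs <;> simp
  simpa [h2] using h3

lemma bad_le {β η : ℝ} (hβ : 0 ≤ β) (hη : 0 < η) (e : 2 * β + 2 * η = 1) (hn : 1 ≤ n) :
    disorder n {g | ¬ (Good (Jm β g) η ∧
      ∀ u : Fin n → ℝ, -(1 * ∑ i, u i ^ 2) ≤ ∑ i, ∑ j, Jm β g i j * u i * u j)} ≤
      8 * n ^ 2 * tl (η / 50000) n := by
  obtain ⟨ε, hε⟩ : ∃ ε, ε = η / 50000 := ⟨_, rfl⟩
  rw [← hε]
  have h0 : 0 < ε := by rw [hε]; positivity
  have h1 : ε ≤ 1 := by linarith
  have hn' : (0 : ℝ) < n := by exact_mod_cast hn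
  have hr := sqrt_pos.2 hn'
  have neg : MeasurePreserving (fun g : Pair n → ℝ => -g) (gm _) (gm _) :=
    mp_gm (by fun_prop) fun θ => ⟨-θ, fun x => by simp, by simp⟩
  have c1 := up_le h0 h1 hn
  have c2 := (neg.measure_preimage_le _).trans c1
  have c3 := union_le (gm (Pair n)) (row_le (n := n) h0 h1)
  have c4 := union_le (gm (Pair n)) fun p => chi_one p ε n
  have c5 : ((Fintype.card (Pair n) : ℕ) : ENNReal) ≤ n ^ 2 := by
    have := Fintype.card_subtype_le fun p : Fin n × Fin n => p.1 < p.2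
    rw [Fintype.card_prod, Fintype.card_fin, ← sq] at this
    exact_mod_cast this
  have c6 : (n : ENNReal) ≤ n ^ 2 := by exact_mod_cast Nat.le_self_pow two_ne_zero n
  rw [Fintype.card_fin] at c3
  refine le_trans (measure_mono fun g hg => ?_) (((measure_union_le _ _).trans (add_le_add
    ((measure_union_le _ _).trans (add_le_add c1 c2))
    ((measure_union_le _ _).trans (add_le_add c3 c4)))).trans ?_)
  · by_contra hc
    simp only [Set.mem_union, Set.mem_setOf_eq, Set.mem_preimage, not_or, not_not, not_exists,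
      not_le] at hc
    obtain ⟨⟨a1, a2⟩, a3, a4⟩ := hc
    have q : ∀ u : Fin n → ℝ, ∑ i, ∑ j, Jm β g i j * u i * u j =
        β / √n * ∑ i, ∑ j, gsym g i j * u i * u j := fun u => by
      simp only [Jm, mul_sum, mul_assoc]
    have q1 : ∀ u : Fin n → ℝ, β / √n * ((2 + 5 * ε) * √n * ∑ i, u i ^ 2) ≤
        (1 - η) * ∑ i, u i ^ 2 := fun u => by
      rw [← mul_assoc]
      refine mul_le_mul_of_nonneg_right ?_ (sum_nonneg fun _ _ => sq_nonneg _)
      rw [mul_left_comm, div_mul_cancel₀ _ hr.ne']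
      nlinarith
    refine hg ⟨⟨hη, by linarith, Jm_symm, Jm_diag, fun u => ?_, fun i => ?_, fun i j => ?_⟩,
      fun u => ?_⟩
    · rw [q]
      exact (mul_le_mul_of_nonneg_left (a1 u) (by positivity)).trans (q1 u)
    · simp only [Jm, mul_pow, ← mul_sum, div_pow, sq_sqrt hn'.le]
      refine (mul_le_mul_of_nonneg_left (a3 i).le (by positivity)).trans ?_
      rw [mul_left_comm, div_mul_cancel₀ _ hn'.ne']
      nlinarith [mul_le_mul (show β ≤ 1 / 2 by linarith) (show β ≤ 1 / 2 by linarith) hβ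
        (by norm_num), mul_self_nonneg β]
    · have b1 : gsym g i j ^ 2 ≤ (ε * √n) ^ 2 := by
        rw [mul_pow, sq_sqrt hn'.le]
        unfold gsym
        split_ifs
        · exact (a4 _).le
        · exact (a4 _).le
        · rw [zero_pow two_ne_zero]; positivity
      rw [Jm, abs_mul, abs_of_nonneg (by positivity)]
      refine (mul_le_mul_of_nonneg_left (abs_le.2 (abs_le_of_sq_le_sq' b1 (by positivity)))
        (by positivity)).trans ?_
      rw [mul_left_comm, div_mul_cancel₀ _ hr.ne', ← hε]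
      exact mul_le_of_le_one_right h0.le (by linarith)
    · have b1 := mul_le_mul_of_nonneg_left (a2 u) (by positivity : 0 ≤ β / √n)
      have b2 := q1 u
      have b3 : 0 ≤ η * ∑ i, u i ^ 2 := mul_nonneg hη.le (sum_nonneg fun _ _ => sq_nonneg _)
      rw [q, quad_eq]
      simp only [quad_eq, Pi.neg_apply, mul_neg, neg_mul, sum_neg_distrib] at b1
      linarith
  · calc _ ≤ (n : ENNReal) ^ 2 * (2 * tl ε n) + n ^ 2 * tl ε n + (n ^ 2 * (2 * tl ε n) + n ^ 2 * tl ε n) +
          (n ^ 2 * tl ε n + n ^ 2 * tl ε n) := by gcongr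
      _ = _ := by ring

lemma tl_tendsto (h0 : 0 < ε) : Tendsto (fun n : ℕ => 8 * (n : ENNReal) ^ 2 * tl ε n) atTop (𝓝 0) := by
  have hc : 0 < ε ^ 2 / 16 := by positivity
  have h1 := ((tendsto_pow_mul_exp_neg_atTop_nhds_zero 2).comp
    (tendsto_natCast_atTop_atTop.const_mul_atTop hc)).const_mul (16 / (ε ^ 2 / 16) ^ 2)
  have h2 := ENNReal.tendsto_ofReal h1
  rw [mul_zero, ENNReal.ofReal_zero] at h2
  refine h2.congr fun n => ?_
  rw [tl, ← ENNReal.ofReal_natCast, ← ENNReal.ofReal_pow (Nat.cast_nonneg _), ← ENNReal.ofReal_ofNat 8,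
    ← ENNReal.ofReal_mul (by norm_num), ← ENNReal.ofReal_mul (by positivity)]
  congr 1
  simp only [comp_apply]
  field_simp
  ring

theorem main (β : ℝ) (h0 : 0 ≤ β) (h1 : β < 1 / 2) :
    ∃ C c : ℝ, 0 < c ∧ Tendsto (fun n : ℕ => disorder n {g : Pair n → ℝ |
      ¬ (tmix β g ≤ C * log n ∧ (∀ t, C * log n ≤ t → ∀ x, tv β g t x ≤ 1 / 4) ∧
        c ≤ gap β g ∧ gap β g ≤ 1)}) atTop (𝓝 0) := by
  obtain ⟨η, hη⟩ : ∃ η, η = 1 / 2 - β := ⟨_, rfl⟩
  have h2 : 0 < η := by linarith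
  refine ⟨20 * exp (32 / η + 1), η / 2, half_pos h2, ?_⟩
  refine tendsto_of_tendsto_of_tendsto_of_le_of_le' tendsto_const_nhds
    (tl_tendsto (ε := η / 50000) (by positivity)) (Eventually.of_forall fun _ => zero_le) ?_
  filter_upwards [eventually_ge_atTop 2] with n hn
  refine le_trans (measure_mono ?_) (bad_le (n := n) h0 h2 (by linarith) (by omega))
  refine fun g hg hG => hg ?_
  refine ⟨csInf_le ⟨0, fun t ht => ht.1⟩ ⟨?_, hG.1.tv hG.2 hn le_rfl⟩,
    fun t ht => hG.1.tv hG.2 hn ht, hG.1.gap (by omega)⟩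
  have := log_natCast_nonneg n
  positivity

end

end Vale.Agent.P150
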