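import Mathlib

/-! Standard Gaussian vectors: invariance and chi-square tails. -/

set_option linter.all false

namespace Vale.Agent.P150

open Finset Function Real MeasureTheory ProbabilityTheory

noncomputable section

/-- The standard Gaussian measure. -/
abbrev gm (α : Type) [Fintype α] : Measure (α → ℝ) := Measure.pi fun _ => gaussianReal 0 1

variable {α β : Type} [Fintype α] [Fintype β]

lemma char_gm (θ : α → ℝ) :
    ∫ x, Complex.exp ((∑ a, θ a * x a : ℝ) * Complex.I) ∂gm α =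
      Complex.exp (-((∑ a, θ a ^ 2 : ℝ) : ℂ) / 2) := by
  have h := charFun_stdGaussian (WithLp.toLp 2 θ : EuclideanSpace ℝ α)
  rw [← map_pi_eq_stdGaussian, charFun_apply, integral_map (by fun_prop) (by fun_prop),
    ← Complex.ofReal_pow, EuclideanSpace.real_norm_sq_eq] at h
  simpa only [PiLp.inner_apply, RCLike.inner_apply, conj_trivial] using h

/-- A map whose adjoint is an isometry preserves the standard Gaussian measure. -/
lemma mp_gm {T : (α → ℝ) → β → ℝ} (hT : Measurable T)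
    (h : ∀ θ : β → ℝ, ∃ θ' : α → ℝ, (∀ x, ∑ b, θ b * T x b = ∑ a, θ' a * x a) ∧
      ∑ a, θ' a ^ 2 = ∑ b, θ b ^ 2) : MeasurePreserving T (gm α) (gm β) := by
  refine ⟨hT, (MeasurableEquiv.toLp 2 (β → ℝ)).map_measurableEquiv_injective ?_⟩
  refine Measure.ext_of_charFun (E := EuclideanSpace ℝ β) (funext fun t => ?_)
  obtain ⟨θ', h1, h2⟩ := h t.ofLp
  rw [MeasurableEquiv.coe_toLp, charFun_apply, charFun_apply, integral_map (by fun_prop) (by fun_prop),
    integral_map (by fun_prop) (by fun_prop), integral_map (by fun_prop) (by fun_prop)]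
  simp only [PiLp.inner_apply, RCLike.inner_apply, conj_trivial, h1, char_gm, h2]

lemma le_of_mp {X Y : Type} [MeasurableSpace X] [MeasurableSpace Y] {μ : Measure X} {ν : Measure Y}
    {T : X → Y} (h : MeasurePreserving T μ ν) {s : Set X} {t : Set Y} (hs : ∀ x ∈ s, T x ∈ t) :
    μ s ≤ ν t :=
  (measure_mono hs).trans (h.map_eq ▸ Measure.le_map_apply h.measurable.aemeasurable t)

lemma int_exp_sq {l : ℝ} (h0 : 0 ≤ l) (h1 : l ≤ 1 / 4) :
    0 < ∫ y, exp (l * y ^ 2) ∂gaussianReal 0 1 ∧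
      ∫ y, exp (l * y ^ 2) ∂gaussianReal 0 1 ≤ exp (l + 4 * l ^ 2) := by
  have e : ∫ y, exp (l * y ^ 2) ∂gaussianReal 0 1 = (√(2 * π))⁻¹ * √(π / (1 / 2 - l)) := by
    rw [integral_gaussianReal_eq_integral_smul one_ne_zero, ← integral_gaussian,
      ← integral_const_mul]
    refine integral_congr_ae (Filter.Eventually.of_forall fun y => ?_)
    simp only [gaussianPDFReal, NNReal.coe_one, mul_one, smul_eq_mul, sub_zero, mul_assoc, ← exp_add]
    congr 2
    ring
  have h2 : 0 < 1 / 2 - l := by linarith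
  have h3 := pi_pos
  rw [e]
  refine ⟨by positivity, ?_⟩
  rw [← div_eq_inv_mul, ← sqrt_div (by positivity), sqrt_le_left (exp_pos _).le, ← exp_nat_mul,
    div_div, div_le_iff₀ (by positivity)]
  have h4 := add_one_le_exp (((2 : ℕ) : ℝ) * (l + 4 * l ^ 2))
  have h5 : 1 ≤ ((2 : ℕ) * (l + 4 * l ^ 2) + 1) * ((1 / 2 - l) * 2) := by
    push_cast
    nlinarith [mul_nonneg (sq_nonneg l) (sub_nonneg.2 h1)]
  nlinarith [mul_le_mul_of_nonneg_right h4 (by positivity : 0 ≤ (1 / 2 - l) * 2)]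

lemma chi (s : Finset α) {l : ℝ} (h0 : 0 ≤ l) (h1 : l ≤ 1 / 4) (a : ℝ) :
    gm α {x | a ≤ ∑ p ∈ s, x p ^ 2} ≤
      ENNReal.ofReal (exp (-l * a + s.card * (l + 4 * l ^ 2))) := by
  classical
  obtain ⟨h2, h3⟩ := int_exp_sq h0 h1
  have e : ∫ x, exp (l * ∑ p ∈ s, x p ^ 2) ∂gm α =
      (∫ y, exp (l * y ^ 2) ∂gaussianReal 0 1) ^ s.card := by
    have e1 : ∀ x : α → ℝ, exp (l * ∑ p ∈ s, x p ^ 2) =
        ∏ p, if p ∈ s then exp (l * x p ^ 2) else 1 := fun x => by
      rw [prod_ite_mem, univ_inter, mul_sum, exp_sum]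
    simp only [e1]
    rw [integral_fintype_prod_eq_prod (f := fun p y => if p ∈ s then exp (l * y ^ 2) else 1),
      ← prod_const, ← univ_inter s, ← prod_ite_mem, univ_inter]
    refine prod_congr rfl fun p _ => ?_
    split_ifs <;> simp
  have h4 := measure_ge_le_exp_mul_mgf (μ := gm α) (X := fun x => ∑ p ∈ s, x p ^ 2) a h0
    (.of_integral_ne_zero (by rw [e]; positivity))
  rw [mgf, e] at h4
  rw [← ofReal_measureReal, exp_add, exp_nat_mul]
  exact ENNReal.ofReal_le_ofReal (h4.trans (mul_le_mul_of_nonneg_left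
    (pow_le_pow_left₀ h2.le h3 _) (exp_pos _).le))

/-- The common bound of the tails. -/
def tl (ε : ℝ) (N : ℕ) : ENNReal := ENNReal.ofReal (2 * exp (-(ε ^ 2 / 16 * N)))

lemma chi_sum (s : Finset α) {ε : ℝ} (h0 : 0 ≤ ε) (h1 : ε ≤ 1) {N : ℕ} (hs : s.card ≤ N) :
    gm α {x | (1 + ε) * N ≤ ∑ p ∈ s, x p ^ 2} ≤ tl ε N := by
  refine (chi s (l := ε / 8) (by positivity) (by linarith) _).trans (ENNReal.ofReal_le_ofReal ?_)
  have h2 : (s.card : ℝ) ≤ N := by exact_mod_cast hs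
  have h3 := mul_le_mul_of_nonneg_right h2 (by positivity : 0 ≤ ε / 8 + 4 * (ε / 8) ^ 2)
  refine le_trans (exp_le_exp.2 ?_) (le_mul_of_one_le_left (exp_pos _).le one_le_two)
  linarith

lemma chi_one (p : α) (ε : ℝ) (N : ℕ) : gm α {x | ε ^ 2 * N ≤ x p ^ 2} ≤ tl ε N := by
  have h := chi {p} (l := 1 / 4) (by norm_num) le_rfl (ε ^ 2 * N)
  simp only [sum_singleton, card_singleton, Nat.cast_one, one_mul] at h
  refine h.trans (ENNReal.ofReal_le_ofReal ?_)
  rw [exp_add, mul_comm]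
  refine mul_le_mul ?_ (exp_le_exp.2 ?_) (exp_pos _).le two_pos.le
  · rw [← le_log_iff_exp_le two_pos]
    linarith [log_two_gt_d9]
  · have : 0 ≤ ε ^ 2 * N := by positivity
    linarith

end

end Vale.Agent.P150
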