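import Vale.Agent.P150.Defs
import Vale.Agent.P150.Final

/-! Logarithmic mixing and a uniform spectral gap for the SK model below one half. -/

namespace Vale.Agent.Results.P150.Half

open Vale.Agent.P150 Filter Topology

theorem result (β : ℝ) (h0 : 0 ≤ β) (h1 : β < 1 / 2) :
    ∃ C c : ℝ, 0 < c ∧ Tendsto (fun n : ℕ => disorder n {g : Pair n → ℝ |
      ¬ (tmix β g ≤ C * Real.log n ∧ (∀ t, C * Real.log n ≤ t → ∀ x, tv β g t x ≤ 1 / 4) ∧
        c ≤ gap β g ∧ gap β g ≤ 1)}) atTop (𝓝 0) :=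
  main β h0 h1

end Vale.Agent.Results.P150.Half
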