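import Vale.Agent.P150.Ent
import Vale.Agent.P150.Bochner

/-! Entropic stability and one localisation step. -/

set_option linter.all false

namespace Vale.Agent.P150

open Finset Function Real

noncomputable section

variable {ι : Type} [Fintype ι] [DecidableEq ι] {W f : (ι → Bool) → ℝ}

/-- A variance bound along the tilts gives a bound of the moment generating function. -/
lemma mgf_le (hW : ∀ x, 0 < W x) (F : (ι → Bool) → ℝ) {c : ℝ}
    (hv : ∀ r : ℝ, ∃ m, Ex (fun x => W x * exp (r * F x)) (fun x => (F x - m) ^ 2) ≤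
      c * ∑ x, W x * exp (r * F x)) :
    Ex W (fun x => exp (F x - av W F - c / 2)) ≤ ∑ x, W x := by
  obtain ⟨S, hS⟩ : ∃ S : ℕ → ℝ → ℝ, ∀ k r, S k r = ∑ x, W x * exp (r * F x) * F x ^ k :=
    ⟨_, fun _ _ => rfl⟩
  have hd : ∀ k r, HasDerivAt (S k) (S (k + 1) r) r := fun k r => by
    rw [funext (hS k), hS]
    refine HasDerivAt.fun_sum fun x _ => ?_
    have := ((((hasDerivAt_id' r).mul_const (F x)).exp).const_mul (W x)).mul_const (F x ^ k)
    refine this.congr_deriv ?_
    ring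
  have h0 : ∀ r, 0 < S 0 r := fun r => by
    rw [hS]; exact sum_pos (fun x _ => by have := hW x; positivity) univ_nonempty
  have h1 : ∀ r, S 2 r * S 0 r - S 1 r * S 1 r ≤ c * S 0 r ^ 2 := fun r => by
    obtain ⟨m, hm⟩ := hv r
    have e1 : Ex (fun x => W x * exp (r * F x)) (fun x => (F x - m) ^ 2) =
        S 2 r - 2 * m * S 1 r + m ^ 2 * S 0 r := by
      simp only [hS, Ex, mul_sum, ← sum_sub_distrib, ← sum_add_distrib]
      exact sum_congr rfl fun x _ => by ring
    have e2 : ∑ x, W x * exp (r * F x) = S 0 r := by simp only [hS, pow_zero, mul_one]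
    rw [e1, e2] at hm
    nlinarith [mul_le_mul_of_nonneg_right hm (h0 r).le, sq_nonneg (m * S 0 r - S 1 r)]
  have h2 : Monotone fun r => c * r - S 1 r / S 0 r :=
    monotone_of_hasDerivAt_nonneg
      (fun r => ((hasDerivAt_id' r).const_mul c).fun_sub ((hd 1 r).fun_div (hd 0 r) (h0 r).ne'))
      fun r => by
        have := h1 r
        rw [Pi.zero_apply, sub_nonneg, div_le_iff₀ (pow_pos (h0 r) 2), mul_one]
        exact this
  have h3 : MonotoneOn (fun r => S 1 0 / S 0 0 * r + c / 2 * r ^ 2 - log (S 0 r)) (Set.Ici 0) := by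
    have hd' : ∀ r, HasDerivAt (fun r => S 1 0 / S 0 0 * r + c / 2 * r ^ 2 - log (S 0 r))
        (S 1 0 / S 0 0 + c * r - S 1 r / S 0 r) r := fun r => by
      have := (((hasDerivAt_id' r).const_mul (S 1 0 / S 0 0)).fun_add
        (((hasDerivAt_id' r).fun_pow 2).const_mul (c / 2))).fun_sub ((hd 0 r).log (h0 r).ne')
      refine this.congr_deriv ?_
      push_cast
      ring
    refine monotoneOn_of_deriv_nonneg (convex_Ici 0)
      (fun r _ => (hd' r).continuousAt.continuousWithinAt)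
      (fun r _ => (hd' r).differentiableAt.differentiableWithinAt) fun r hr => ?_
    rw [interior_Ici] at hr
    have := h2 (le_of_lt hr)
    rw [(hd' r).deriv]
    simp only [mul_zero] at this
    linarith
  have h4 := h3 (le_refl (0 : ℝ)) (zero_le_one' ℝ) zero_le_one
  have e0 : S 0 0 = ∑ x, W x := by simp [hS]
  have e1 : S 1 0 / S 0 0 = av W F := by simp [hS, av, Ex]
  have e2 : Ex W (fun x => exp (F x - av W F - c / 2)) = S 0 1 * exp (-(av W F + c / 2)) := by
    simp only [hS, Ex, sum_mul]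
    exact sum_congr rfl fun x _ => by
      rw [pow_zero, mul_one, one_mul, mul_assoc, ← exp_add]; congr 2; ring
  rw [e2, ← e0, ← exp_log (h0 1), ← exp_log (h0 0), ← exp_add, exp_le_exp]
  simp only [e1] at h4
  linarith

variable {J : ι → ι → ℝ} {η : ℝ}

lemma Good.mgf (hJ : Good J η) (h θ : ι → ℝ) :
    Ex (isw J h) (fun x => exp (∑ i, θ i * spin (x i) - av (isw J h) (fun x => ∑ i, θ i * spin (x i)) -
      2 / η * (∑ i, θ i ^ 2) / 2)) ≤ ∑ x, isw J h x := by
  refine mgf_le (isw_pos J h) _ fun r => ?_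
  have e : (fun x => isw J h x * exp (r * ∑ i, θ i * spin (x i))) = isw J fun i => h i + r * θ i := by
    funext x
    simp only [isw, en, ← exp_add, add_mul, sum_add_distrib, mul_sum, mul_assoc, add_assoc]
  have hW := isw_pos J fun i => h i + r * θ i
  rw [show ∑ x, isw J h x * exp (r * ∑ i, θ i * spin (x i)) = ∑ x, isw J (fun i => h i + r * θ i) x
    by rw [← e], e]
  set W := isw J fun i => h i + r * θ i
  refine ⟨av W fun x => ∑ i, θ i * spin (x i), ?_⟩
  have h1 := hJ.poincare (fun i => h i + r * θ i)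
    (g := fun x => ∑ i, θ i * spin (x i) - av W fun x => ∑ i, θ i * spin (x i))
    (by rw [Ex_sub, Ex_const, Ex_eq_av hW, sub_self])
  have h2 : Dir W (fun x => ∑ i, θ i * spin (x i) - av W fun x => ∑ i, θ i * spin (x i)) ≤
      (∑ i, θ i ^ 2) * ∑ x, W x := by
    rw [Dir, sum_mul]
    refine sum_le_sum fun i _ => ?_
    rw [Ex_Dw_sq hW, ← Ex_const]
    refine Ex_mono hW fun x => ?_
    have e1 : dd i (fun x => ∑ i, θ i * spin (x i) - av W fun x => ∑ i, θ i * spin (x i)) x = θ i := by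
      rw [dd, sub_sub_sub_cancel_right, ← sum_sub_distrib, sum_eq_single i]
      · simp
      · intro j _ hj
        simp [update_of_ne hj]
      · simp
    rw [e1]
    exact mul_le_of_le_one_left (sq_nonneg _) (by nlinarith [sq_nonneg (mw W i x)])
  have hη := hJ.pos
  rw [mul_assoc, div_mul_eq_mul_div, le_div_iff₀ hη]
  linarith

/-- Entropic stability. -/
lemma Good.stab (hJ : Good J η) (h : ι → ℝ) (hf : ∀ x, 0 < f x) :
    ∑ i, Ex (isw J h) (fun x => (f x - av (isw J h) f) * spin (x i)) ^ 2 ≤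
      4 / η * (av (isw J h) f * ∑ x, isw J h x) * Ent (isw J h) f := by
  have hW := isw_pos J h
  have hη := hJ.pos
  have hZ := sumW_pos hW
  have ha := av_pos hW hf
  set W := isw J h
  obtain ⟨δ, hδ⟩ : ∃ δ : ι → ℝ, ∀ i, δ i = Ex W fun x => (f x - av W f) * spin (x i) :=
    ⟨_, fun _ => rfl⟩
  obtain ⟨l, hl⟩ : ∃ l : ℝ, l = η / (2 * (av W f * ∑ x, W x)) := ⟨_, rfl⟩
  have h1 := dv hW hf (hJ.mgf h fun i => l * δ i)
  have e1 : Ex W (fun x => f x * ∑ i, l * δ i * spin (x i)) -
      av W f * Ex W (fun x => ∑ i, l * δ i * spin (x i)) = l * ∑ i, δ i ^ 2 := by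
    have e0 : ∀ i, l * δ i ^ 2 = Ex W fun x => l * δ i * ((f x - av W f) * spin (x i)) := fun i => by
      rw [Ex_mul, ← hδ]; ring
    rw [← Ex_mul, ← Ex_sub, mul_sum]
    simp only [e0, ← Ex_sum]
    refine Ex_congr fun x => ?_
    rw [← sub_mul, mul_sum]
    exact sum_congr rfl fun i _ => by ring
  obtain ⟨m, hm⟩ : ∃ m, m = av W fun x => ∑ i, l * δ i * spin (x i) := ⟨_, rfl⟩
  have e3 : ∑ i, (l * δ i) ^ 2 = l ^ 2 * ∑ i, δ i ^ 2 := by simp only [mul_pow, mul_sum]
  rw [← hm, e3] at h1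
  have e4 : ∀ x c, f x * (∑ i, l * δ i * spin (x i) - m - c) =
      f x * ∑ i, l * δ i * spin (x i) - (m + c) * f x := fun x c => by ring
  simp only [e4, Ex_sub, Ex_mul] at h1
  simp only [← hδ]
  rw [Ex_eq_av hW f] at h1
  rw [Ex_eq_av hW fun x => ∑ i, l * δ i * spin (x i), ← hm] at e1
  have e2 : l * ∑ i, δ i ^ 2 - 2 / η * (l ^ 2 * ∑ i, δ i ^ 2) / 2 * (av W f * ∑ x, W x) =
      (∑ i, δ i ^ 2) / (4 / η * (av W f * ∑ x, W x)) := by
    rw [hl]; field_simp; ring
  rw [mul_comm, ← div_le_iff₀ (by positivity), ← e2]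
  linarith

/-- One step of a localisation scheme. -/
lemma AT_step {κ : Type} [Fintype κ] (hW : ∀ x, 0 < W x) {k : κ → (ι → Bool) → ℝ}
    (hk : ∀ z x, 0 < k z x) (hs : ∀ x, ∑ z, k z x = 1) {A d c : ℝ} (hA : 0 ≤ A) (hd : d ≤ 1 / 2)
    (hd0 : 0 ≤ d) (hc : 0 < c) (hc' : ∀ z x, c ≤ k z x) (hAT : ∀ z, AT (fun x => W x * k z x) A)
    (hdrop : ∀ f : (ι → Bool) → ℝ, (∀ x, 0 < f x) →
      ∑ z, Ex W (fun x => (f x - av W f) * k z x) ^ 2 ≤ c * d * (av W f * ∑ x, W x) * Ent W f) :
    AT W (exp (2 * d) * A) := by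
  intro f g hf hg hi
  have hWz : ∀ z x, 0 < W x * k z x := fun z x => mul_pos (hW x) (hk z x)
  have ha := av_pos hW hf
  have hZ := sumW_pos hW
  have hE := Ent_nonneg hW hf
  have split : ∀ F : (ι → Bool) → ℝ, Ex W F = ∑ z, Ex (fun x => W x * k z x) F := fun F => by
    simp only [Ex]
    rw [sum_comm]
    exact sum_congr rfl fun x _ => by rw [← sum_mul, ← mul_sum, hs, mul_one]
  have h1 : Ent W f = ∑ z, Ent (fun x => W x * k z x) f +
      ∑ z, (∑ x, W x * k z x) * Ph (av (fun x => W x * k z x) f) (av W f) := by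
    rw [Ent, split, ← sum_add_distrib]
    exact sum_congr rfl fun z _ => Ex_Ph (hWz z) f _
  have h2 : ∑ z, (∑ x, W x * k z x) * Ph (av (fun x => W x * k z x) f) (av W f) ≤ d * Ent W f := by
    refine le_trans (sum_le_sum (g := fun z => Ex W (fun x => (f x - av W f) * k z x) ^ 2 /
      (c * (av W f * ∑ x, W x))) fun z _ => ?_) ?_
    · have hZz := sumW_pos (hWz z)
      have a1 : c * ∑ x, W x ≤ ∑ x, W x * k z x := by
        rw [mul_sum]
        exact sum_le_sum fun x _ => by rw [mul_comm]; exact mul_le_mul_of_nonneg_left (hc' z x) (hW x).le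
      have a2 : Ex W (fun x => (f x - av W f) * k z x) =
          (∑ x, W x * k z x) * (av (fun x => W x * k z x) f - av W f) := by
        rw [mul_sub, mul_comm _ (av _ f), ← Ex_eq_av (hWz z), mul_comm _ (av W f), ← Ex_const, ← Ex_sub]
        exact sum_congr rfl fun x _ => by ring
      refine (mul_le_mul_of_nonneg_left (Ph_le (av_pos (hWz z) hf) ha) hZz.le).trans ?_
      rw [a2, ← mul_div_assoc, div_le_div_iff₀ ha (by positivity)]
      have a3 := mul_le_mul_of_nonneg_left a1 (by positivity : 0 ≤ (∑ x, W x * k z x) *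
        (av (fun x => W x * k z x) f - av W f) ^ 2 * av W f)
      linarith
    · rw [← sum_div, div_le_iff₀ (by positivity)]
      exact (hdrop f hf).trans_eq (by ring)
  have h3 : ∑ z, Ent (fun x => W x * k z x) f ≤ A * ∑ i, Ex W fun x => Ph (f x) (g i x) := by
    simp only [split fun x => Ph (f x) _]
    rw [sum_comm, mul_sum]
    exact sum_le_sum fun z _ => hAT z f g hf hg hi
  have h4 : 0 ≤ A * ∑ i, Ex W fun x => Ph (f x) (g i x) :=
    mul_nonneg hA (sum_nonneg fun i _ => Ex_nonneg hW fun x => Ph_nonneg (hf x) (hg i x))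
  have h5 := add_one_le_exp (2 * d)
  rw [mul_assoc]
  have h6 : (1 - d) * Ent W f ≤ A * ∑ i, Ex W fun x => Ph (f x) (g i x) := by linarith
  nlinarith [mul_le_mul_of_nonneg_left h6 (by linarith : 0 ≤ 2 * d + 1),
    mul_le_mul_of_nonneg_right h5 h4, mul_nonneg hE (mul_nonneg hd0 (by linarith : 0 ≤ 1 - 2 * d))]

lemma AT.near {W' : (ι → Bool) → ℝ} (hW : ∀ x, 0 < W x) (hW' : ∀ x, 0 < W' x) {A c e : ℝ}
    (hA : 0 ≤ A) (h : AT W A) (h1 : ∀ x, |log (W' x) - log (W x) - c| ≤ e) :
    AT W' (exp (2 * e) * A) := by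
  have h2 : AT (fun x => exp (c - e) * W x) A := fun f g hf hg hi => by
    have e1 : ∀ F, Ex (fun x => exp (c - e) * W x) F = exp (c - e) * Ex W F := fun F => by
      simp only [Ex, mul_sum, mul_assoc]
    have e2 : av (fun x => exp (c - e) * W x) f = av W f := by
      rw [av, av, e1, ← mul_sum, mul_div_mul_left _ _ (exp_pos _).ne']
    simp only [Ent, e1, e2, ← mul_sum]
    rw [mul_left_comm]
    exact mul_le_mul_of_nonneg_left (h f g hf hg hi) (exp_pos _).le
  refine h2.perturb (fun x => mul_pos (exp_pos _) (hW x)) hW' hA (exp_pos _).le (fun x => ?_)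
    fun x => ?_
  · rw [← exp_log (hW x), ← exp_log (hW' x), ← exp_add, exp_le_exp]
    linarith [(abs_le.1 (h1 x)).1]
  · rw [← exp_log (hW x), ← exp_log (hW' x), ← exp_add, ← exp_add, exp_le_exp]
    linarith [(abs_le.1 (h1 x)).2]

end

end Vale.Agent.P150
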