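import Mathlib

/-! The two spin estimate. -/

namespace Vale.Agent.P150

/-- The value of a spin. -/
def spin (b : Bool) : ℝ := if b then 1 else -1

@[simp] lemma spin_true : spin true = 1 := rfl
@[simp] lemma spin_false : spin false = -1 := rfl

lemma spin_sq (b : Bool) : spin b ^ 2 = 1 := by cases b <;> simp
lemma abs_spin (b : Bool) : |spin b| = 1 := by cases b <;> simp

/-- First order expansion with quadratic error. -/
def Ap (t g g1 K L : ℝ) : Prop := |g - 1 - t * g1| ≤ K * t ^ 2 ∧ |g1| ≤ L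

lemma Ap.mul {t g g1 K L h h1 K' L' : ℝ} (ht : |t| ≤ 1) (a : Ap t g g1 K L) (b : Ap t h h1 K' L') :
    Ap t (g * h) (g1 + h1) (K * (1 + L' + K') + (1 + L) * K' + L * L') (L + L') := by
  obtain ⟨a1, a2⟩ := a
  obtain ⟨b1, b2⟩ := b
  have ht2 : t ^ 2 ≤ 1 := by rw [← sq_abs]; exact pow_le_one₀ (abs_nonneg _) ht
  have hK' : 0 ≤ K' * t ^ 2 := (abs_nonneg _).trans b1
  have hL : 0 ≤ L := (abs_nonneg _).trans a2
  have c1 : |t * h1| ≤ L' := by
    rw [abs_mul]; exact (mul_le_of_le_one_left (abs_nonneg _) ht).trans b2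
  have c2 : |t * g1| ≤ L := by
    rw [abs_mul]; exact (mul_le_of_le_one_left (abs_nonneg _) ht).trans a2
  rcases eq_or_ne t 0 with rfl | h0
  · refine ⟨?_, (abs_add_le _ _).trans (add_le_add a2 b2)⟩
    simp only [ne_eq, OfNat.ofNat_ne_zero, not_false_eq_true, zero_pow, mul_zero, zero_mul,
      sub_zero, abs_nonpos_iff, sub_eq_zero] at a1 b1 ⊢
    rw [a1, b1, one_mul]
  have hK0 : 0 ≤ K' := nonneg_of_mul_nonneg_left hK' (by positivity)
  have c3 : |h| ≤ 1 + L' + K' := by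
    have e : h = 1 + t * h1 + (h - 1 - t * h1) := by ring
    rw [e]
    refine (abs_add_three _ _ _).trans ?_
    rw [abs_one]
    nlinarith
  have c4 : |1 + t * g1| ≤ 1 + L := (abs_add_le _ _).trans (by rw [abs_one]; linarith)
  refine ⟨?_, (abs_add_le _ _).trans (add_le_add a2 b2)⟩
  have e : g * h - 1 - t * (g1 + h1) =
      (g - 1 - t * g1) * h + (1 + t * g1) * (h - 1 - t * h1) + t ^ 2 * (g1 * h1) := by ring
  rw [e]
  refine (abs_add_three _ _ _).trans ?_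
  rw [abs_mul, abs_mul, abs_mul, abs_mul, abs_of_nonneg (sq_nonneg t)]
  have d1 := mul_le_mul a1 c3 (abs_nonneg _) ((abs_nonneg _).trans a1)
  have d2 := mul_le_mul c4 b1 (abs_nonneg _) (by linarith)
  have d3 := mul_le_mul_of_nonneg_left (mul_le_mul a2 b2 (abs_nonneg _) hL) (sq_nonneg t)
  nlinarith

lemma half_le {t u : ℝ} (ht : |t| ≤ 1 / 2) (hu : |u| ≤ 1) : 1 / 2 ≤ 1 + u * t := by
  have : |u * t| ≤ 1 / 2 := by
    rw [abs_mul]; exact (mul_le_of_le_one_left (abs_nonneg _) hu).trans ht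
  linarith [neg_abs_le (u * t)]

lemma ap_inv {t u : ℝ} (ht : |t| ≤ 1 / 2) (hu : |u| ≤ 1) : Ap t (1 + u * t)⁻¹ (-u) 2 1 := by
  have h := half_le ht hu
  refine ⟨?_, by rwa [abs_neg]⟩
  have e : (1 + u * t)⁻¹ - 1 - t * -u = u ^ 2 * t ^ 2 / (1 + u * t) := by field_simp; ring
  have hu2 : u ^ 2 ≤ 1 := by rw [← sq_abs]; exact pow_le_one₀ (abs_nonneg _) hu
  rw [e, abs_of_nonneg (by positivity), div_le_iff₀ (by linarith)]
  nlinarith [sq_nonneg t, mul_nonneg (sub_nonneg.2 hu2) (sq_nonneg t)]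

/-- The conditional mean of a spin. -/
noncomputable def cm (s t y : ℝ) : ℝ := (s + t * y) / (1 + s * y * t)

lemma cm_sub {s t y : ℝ} (hs : |s| ≤ 1) (ht : |t| ≤ 1 / 2) (hy : y = 1 ∨ y = -1) :
    |cm s t y - s| ≤ 2 * |t| ∧ |cm s t y| ≤ 1 := by
  have hy1 : |y| = 1 := by rcases hy with rfl | rfl <;> simp
  have h := half_le ht (u := s * y) (by rw [abs_mul, hy1, mul_one]; exact hs)
  have hs2 : s ^ 2 ≤ 1 := by rw [← sq_abs]; exact pow_le_one₀ (abs_nonneg _) hs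
  constructor
  · have e : cm s t y - s = t * y * (1 - s ^ 2) / (1 + s * y * t) := by
      rw [cm, div_sub' (by linarith)]
      congr 1
      ring
    rw [e, abs_div, abs_mul, abs_mul, hy1, abs_of_nonneg (sub_nonneg.2 hs2),
      abs_of_nonneg (by linarith : 0 ≤ 1 + s * y * t), div_le_iff₀ (by linarith)]
    nlinarith [abs_nonneg t, sq_nonneg s]
  · rw [cm, abs_div, abs_of_nonneg (by linarith : 0 ≤ 1 + s * y * t), div_le_one (by linarith),
      abs_le]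
    obtain ⟨a1, a2⟩ := abs_le.1 hs
    obtain ⟨a3, a4⟩ := abs_le.1 ht
    rcases hy with rfl | rfl <;> constructor <;> nlinarith

lemma ap_g {s s' t x y : ℝ} (hs : |s| ≤ 1) (hs' : |s'| ≤ 1) (ht : |t| ≤ 1 / 2)
    (hx : x = 1 ∨ x = -1) (hy : y = 1 ∨ y = -1) :
    |(1 - t ^ 2) * (1 + t * (x * y)) * (1 + 2 * t * (cm s t y * cm s' t x)) * (1 + s * y * t)⁻¹ *
      (1 + s' * x * t)⁻¹ - 1 - t * (x * y + 2 * s * s' - s * y - s' * x)| ≤ 1000 * t ^ 2 := by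
  have hx1 : |x| = 1 := by rcases hx with rfl | rfl <;> simp
  have hy1 : |y| = 1 := by rcases hy with rfl | rfl <;> simp
  have ht1 : |t| ≤ 1 := ht.trans (by norm_num)
  have a1 : Ap t (1 - t ^ 2) 0 1 0 := ⟨by simp, by simp⟩
  have a2 : Ap t (1 + t * (x * y)) (x * y) 0 1 := ⟨by simp, by simp [abs_mul, hx1, hy1]⟩
  have a3 : Ap t (1 + 2 * t * (cm s t y * cm s' t x)) (2 * s * s') 8 2 := by
    obtain ⟨b1, b2⟩ := cm_sub hs ht hy
    obtain ⟨b3, -⟩ := cm_sub hs' ht hx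
    constructor
    · have e : 1 + 2 * t * (cm s t y * cm s' t x) - 1 - t * (2 * s * s') =
          2 * t * (cm s t y * (cm s' t x - s') + (cm s t y - s) * s') := by ring
      have b4 : |cm s t y * (cm s' t x - s') + (cm s t y - s) * s'| ≤ 4 * |t| := by
        refine (abs_add_le _ _).trans ?_
        rw [abs_mul, abs_mul]
        have := mul_le_mul b2 b3 (abs_nonneg _) zero_le_one
        have := mul_le_mul b1 hs' (abs_nonneg _) (by positivity)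
        linarith
      rw [e, abs_mul, abs_mul, abs_two, ← sq_abs t]
      nlinarith [abs_nonneg t]
    · rw [mul_assoc, abs_mul, abs_mul, abs_two]
      nlinarith [mul_le_one₀ hs (abs_nonneg _) hs']
  have a4 := ap_inv ht (u := s * y) (by rw [abs_mul, hy1, mul_one]; exact hs)
  have a5 := ap_inv ht (u := s' * x) (by rw [abs_mul, hx1, mul_one]; exact hs')
  have a := (((((a1.mul ht1 a2).mul ht1 a3).mul ht1 a4).mul ht1 a5)).1
  have e : 0 + x * y + 2 * s * s' + -(s * y) + -(s' * x) = x * y + 2 * s * s' - s * y - s' * x := by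
    ring
  rw [e] at a
  exact a.trans (mul_le_mul_of_nonneg_right (by norm_num) (sq_nonneg t))

lemma quad_bound {τ γ p p' q q' : ℝ} (h0 : 0 ≤ τ) (h1 : τ ≤ 1 / 100) (hp : 0 ≤ p) (hp' : 0 ≤ p')
    (hq : 0 ≤ q) (hq' : 0 ≤ q') (a : q ≤ γ + τ * p) (a' : q' ≤ γ + τ * p') :
    τ * (q * q') + 20 * τ ^ 2 * (p * q' + q * p' + q * q') ≤ γ ^ 2 + 40 * τ ^ 3 * (p ^ 2 + p' ^ 2) := by
  have b1 : q ^ 2 ≤ 2 * γ ^ 2 + 2 * (τ * p) ^ 2 :=
    (pow_le_pow_left₀ hq a 2).trans (by nlinarith [sq_nonneg (γ - τ * p)])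
  have b2 : q' ^ 2 ≤ 2 * γ ^ 2 + 2 * (τ * p') ^ 2 :=
    (pow_le_pow_left₀ hq' a' 2).trans (by nlinarith [sq_nonneg (γ - τ * p')])
  have b3 : q * q' ≤ 2 * γ ^ 2 + τ ^ 2 * (p ^ 2 + p' ^ 2) := by nlinarith [sq_nonneg (q - q')]
  have b4 : (τ + 20 * τ ^ 2) * (q * q') ≤ 2 * τ * (2 * γ ^ 2 + τ ^ 2 * (p ^ 2 + p' ^ 2)) :=
    mul_le_mul (by nlinarith) b3 (by positivity) (by positivity)
  have b5 := mul_le_mul_of_nonneg_left a' (by positivity : 0 ≤ 20 * τ ^ 2 * p)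
  have b6 := mul_le_mul_of_nonneg_left a (by positivity : 0 ≤ 20 * τ ^ 2 * p')
  have b7 : 20 * τ ^ 2 * p * γ ≤ γ ^ 2 / 4 + 400 * τ * (τ ^ 3 * p ^ 2) := by
    nlinarith [sq_nonneg (γ / 2 - 20 * τ ^ 2 * p)]
  have b8 : 20 * τ ^ 2 * p' * γ ≤ γ ^ 2 / 4 + 400 * τ * (τ ^ 3 * p' ^ 2) := by
    nlinarith [sq_nonneg (γ / 2 - 20 * τ ^ 2 * p')]
  have b9 : 400 * τ * (τ ^ 3 * p ^ 2) ≤ 4 * (τ ^ 3 * p ^ 2) :=
    mul_le_mul_of_nonneg_right (by linarith) (by positivity)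
  have b10 : 400 * τ * (τ ^ 3 * p' ^ 2) ≤ 4 * (τ ^ 3 * p' ^ 2) :=
    mul_le_mul_of_nonneg_right (by linarith) (by positivity)
  have b11 : τ ^ 3 * (p * p') ≤ τ ^ 3 * ((p ^ 2 + p' ^ 2) / 2) :=
    mul_le_mul_of_nonneg_left (by nlinarith [sq_nonneg (p - p')]) (by positivity)
  have b12 : τ * γ ^ 2 ≤ 1 / 100 * γ ^ 2 := mul_le_mul_of_nonneg_right h1 (sq_nonneg _)
  have b13 : 0 ≤ τ ^ 3 * p ^ 2 := by positivity
  have b14 : 0 ≤ τ ^ 3 * p' ^ 2 := by positivity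
  nlinarith [sq_nonneg γ]

/-- The polynomial part of the kernel. -/
def k0 (s s' t x y : ℝ) : ℝ :=
  x * y - t + t * ((1 + s * x) * (1 + s' * y)) * (1 + t * (x * y + 2 * s * s' - s * y - s' * x))

lemma k0_sum {s s' t P Q P' Q' : ℝ} (hs : |s| ≤ 1) (hs' : |s'| ≤ 1) (ht : |t| ≤ 1 / 100)
    (hc : Q + s * t * P = Q' + s' * t * P') :
    0 ≤ (P + Q) * (P' + Q') * k0 s s' t 1 1 + (P - Q) * (P' + Q') * k0 s s' t 1 (-1) +
      (P + Q) * (P' - Q') * k0 s s' t (-1) 1 + (P - Q) * (P' - Q') * k0 s s' t (-1) (-1) +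
      160 * |t| ^ 3 * (P ^ 2 + P' ^ 2) := by
  have hs2 : s ^ 2 ≤ 1 := by rw [← sq_abs]; exact pow_le_one₀ (abs_nonneg _) hs
  have hs2' : s' ^ 2 ≤ 1 := by rw [← sq_abs]; exact pow_le_one₀ (abs_nonneg _) hs'
  have hss : |s * s'| ≤ 1 := by rw [abs_mul]; exact mul_le_one₀ hs (abs_nonneg _) hs'
  have e : (P + Q) * (P' + Q') * k0 s s' t 1 1 + (P - Q) * (P' + Q') * k0 s s' t 1 (-1) +
      (P + Q) * (P' - Q') * k0 s s' t (-1) 1 + (P - Q) * (P' - Q') * k0 s s' t (-1) (-1) =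
      4 * ((Q + s * t * P) * (Q' + s' * t * P') + t * (s * s') * (Q * Q') +
        t ^ 2 * (s ^ 2 * s' * (P * Q') + s' ^ 2 * s * (Q * P') +
          (1 - s ^ 2 - s' ^ 2 + 2 * (s ^ 2 * s' ^ 2)) * (Q * Q'))) := by
    unfold k0; ring
  have a : |Q| ≤ |Q + s * t * P| + |t| * |P| := by
    have h1 := abs_sub (Q + s * t * P) (s * t * P)
    rw [add_sub_cancel_right, abs_mul, abs_mul, mul_assoc |s|] at h1
    have := mul_le_of_le_one_left (by positivity : 0 ≤ |t| * |P|) hs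
    linarith
  have a' : |Q'| ≤ |Q + s * t * P| + |t| * |P'| := by
    have h1 := abs_sub (Q' + s' * t * P') (s' * t * P')
    rw [add_sub_cancel_right, abs_mul, abs_mul, mul_assoc |s'|, ← hc] at h1
    have := mul_le_of_le_one_left (by positivity : 0 ≤ |t| * |P'|) hs'
    linarith
  have b := quad_bound (abs_nonneg t) ht (abs_nonneg P) (abs_nonneg P') (abs_nonneg Q)
    (abs_nonneg Q') a a'
  simp only [sq_abs] at b
  have c1 : |t * (s * s') * (Q * Q')| ≤ |t| * (|Q| * |Q'|) := by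
    rw [abs_mul, abs_mul, abs_mul Q]
    exact mul_le_mul_of_nonneg_right (mul_le_of_le_one_right (abs_nonneg _) hss) (by positivity)
  have c2 : |s ^ 2 * s' * (P * Q')| ≤ |P| * |Q'| := by
    rw [abs_mul, abs_mul, abs_mul P, abs_of_nonneg (sq_nonneg s)]
    exact mul_le_of_le_one_left (by positivity) (mul_le_one₀ hs2 (abs_nonneg _) hs')
  have c3 : |s' ^ 2 * s * (Q * P')| ≤ |Q| * |P'| := by
    rw [abs_mul, abs_mul, abs_mul Q, abs_of_nonneg (sq_nonneg s')]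
    exact mul_le_of_le_one_left (by positivity) (mul_le_one₀ hs2' (abs_nonneg _) hs)
  have c4 : |(1 - s ^ 2 - s' ^ 2 + 2 * (s ^ 2 * s' ^ 2)) * (Q * Q')| ≤ 4 * (|Q| * |Q'|) := by
    rw [abs_mul, abs_mul Q]
    refine mul_le_mul_of_nonneg_right (abs_le.2 ⟨?_, ?_⟩) (by positivity) <;>
      nlinarith [mul_nonneg (sq_nonneg s) (sq_nonneg s'), mul_le_one₀ hs2 (sq_nonneg s') hs2',
        sq_nonneg s, sq_nonneg s']
  have c5 : -(20 * (|P| * |Q'| + |Q| * |P'| + |Q| * |Q'|)) ≤ s ^ 2 * s' * (P * Q') +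
      s' ^ 2 * s * (Q * P') + (1 - s ^ 2 - s' ^ 2 + 2 * (s ^ 2 * s' ^ 2)) * (Q * Q') := by
    have := neg_abs_le (s ^ 2 * s' * (P * Q'))
    have := neg_abs_le (s' ^ 2 * s * (Q * P'))
    have := neg_abs_le ((1 - s ^ 2 - s' ^ 2 + 2 * (s ^ 2 * s' ^ 2)) * (Q * Q'))
    have : 0 ≤ |P| * |Q'| := by positivity
    have : 0 ≤ |Q| * |P'| := by positivity
    have : 0 ≤ |Q| * |Q'| := by positivity
    linarith
  have c6 := mul_le_mul_of_nonneg_left c5 (sq_nonneg t)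
  have c7 := neg_abs_le (t * (s * s') * (Q * Q'))
  rw [e, ← hc]
  nlinarith

/-- One term of the two spin sum. -/
noncomputable def term (s s' t x y A B : ℝ) : ℝ :=
  (1 + s * x) * (1 + s' * y) * (1 + t * (x * y)) *
    ((x - cm s t y) * A * ((y - cm s' t x) * B) +
      t * ((1 - cm s t y ^ 2) * A * ((1 - cm s' t x ^ 2) * B)) *
        (1 + 2 * t * (cm s t y * cm s' t x)) +
      10000 * |t| ^ 3 * ((1 - cm s t y ^ 2) * A ^ 2 + (1 - cm s' t x ^ 2) * B ^ 2))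

lemma term_eq {s s' t x y : ℝ} (n1 : 1 + s * y * t ≠ 0) (n2 : 1 + s' * x * t ≠ 0)
    (hx : x = 1 ∨ x = -1) (hy : y = 1 ∨ y = -1) (A B : ℝ) :
    term s s' t x y ((1 + s * y * t) * A) ((1 + s' * x * t) * B) =
      (1 - s ^ 2) * (1 - s' ^ 2) * (1 - t ^ 2) *
        (A * B * (x * y - t + t * ((1 + s * x) * (1 + s' * y)) *
          ((1 - t ^ 2) * (1 + t * (x * y)) * (1 + 2 * t * (cm s t y * cm s' t x)) *
            (1 + s * y * t)⁻¹ * (1 + s' * x * t)⁻¹))) +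
      10000 * |t| ^ 3 * (1 - t ^ 2) * ((1 + s * x) * (1 + s' * y) * (1 + t * (x * y))) *
        ((1 - s ^ 2) * A ^ 2 + (1 - s' ^ 2) * B ^ 2) := by
  have e1 : (x - cm s t y) * (1 + s * y * t) = x * (1 - s * x) * (1 - t * (x * y)) := by
    unfold cm
    rw [sub_mul, div_mul_cancel₀ _ n1]
    rcases hx with rfl | rfl <;> ring
  have e2 : (y - cm s' t x) * (1 + s' * x * t) = y * (1 - s' * y) * (1 - t * (x * y)) := by
    unfold cm
    rw [sub_mul, div_mul_cancel₀ _ n2]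
    rcases hy with rfl | rfl <;> ring
  have i1 := mul_inv_cancel₀ n1
  have i2 := mul_inv_cancel₀ n2
  have e3 : 1 - cm s t y ^ 2 = (1 - s ^ 2) * (1 - t ^ 2) * ((1 + s * y * t)⁻¹) ^ 2 := by
    rw [cm, div_eq_mul_inv]
    generalize (1 + s * y * t)⁻¹ = i at i1 ⊢
    rcases hy with rfl | rfl
    · linear_combination (-(1 + (1 + s * 1 * t) * i)) * i1
    · linear_combination (-(1 + (1 + s * -1 * t) * i)) * i1
  have e4 : 1 - cm s' t x ^ 2 = (1 - s' ^ 2) * (1 - t ^ 2) * ((1 + s' * x * t)⁻¹) ^ 2 := by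
    rw [cm, div_eq_mul_inv]
    generalize (1 + s' * x * t)⁻¹ = i at i2 ⊢
    rcases hx with rfl | rfl
    · linear_combination (-(1 + (1 + s' * 1 * t) * i)) * i2
    · linear_combination (-(1 + (1 + s' * -1 * t) * i)) * i2
  have e5 : ∀ c d i A : ℝ, d * i = 1 → c * i ^ 2 * (d * A) = c * i * A := fun c d i A h => by
    linear_combination (c * i * A) * h
  have e6 : ∀ c d i A : ℝ, d * i = 1 → c * i ^ 2 * (d * A) ^ 2 = c * A ^ 2 := fun c d i A h => by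
    linear_combination (c * A ^ 2 * (d * i + 1)) * h
  unfold term
  rw [← mul_assoc (x - cm s t y), ← mul_assoc (y - cm s' t x), e1, e2, e3, e4,
    e5 _ _ _ _ i1, e5 _ _ _ _ i2, e6 _ _ _ _ i1, e6 _ _ _ _ i2]
  generalize cm s t y * cm s' t x = mm
  generalize (1 + s * y * t)⁻¹ = j1
  generalize (1 + s' * x * t)⁻¹ = j2
  generalize |t| ^ 3 = τ
  rcases hx with rfl | rfl <;> rcases hy with rfl | rfl <;> ring

lemma lin_bounds {s x : ℝ} (hs : |s| ≤ 1) (hx : x = 1 ∨ x = -1) :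
    0 ≤ 1 + s * x ∧ 1 + s * x ≤ 2 ∧ (1 - s ^ 2) / 2 ≤ 1 + s * x := by
  obtain ⟨s1, s2⟩ := abs_le.1 hs
  rcases hx with rfl | rfl <;> refine ⟨by linarith, by linarith, by nlinarith⟩

lemma err_bound {t w r : ℝ} (hw0 : 0 ≤ w) (hw : w ≤ 4) (hr : |r| ≤ 1000 * t ^ 2) (A B : ℝ) :
    -(2000 * |t| ^ 3 * (A ^ 2 + B ^ 2)) ≤ A * B * (t * w * r) := by
  have h1 : |A * B| ≤ (A ^ 2 + B ^ 2) / 2 := by
    rw [abs_le]; constructor <;> nlinarith [sq_nonneg (A + B), sq_nonneg (A - B)]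
  refine le_trans (neg_le_neg ?_) (neg_abs_le _)
  rw [abs_mul, abs_mul (t * _), abs_mul t, abs_of_nonneg hw0]
  calc _ ≤ (A ^ 2 + B ^ 2) / 2 * (|t| * 4 * (1000 * t ^ 2)) := by gcongr
    _ = _ := by rw [← sq_abs t]; ring

lemma term_ge {s s' t x y : ℝ} (hs : |s| ≤ 1) (hs' : |s'| ≤ 1) (ht : |t| ≤ 1 / 2)
    (hx : x = 1 ∨ x = -1) (hy : y = 1 ∨ y = -1) (A B : ℝ) :
    (1 - s ^ 2) * (1 - s' ^ 2) * (1 - t ^ 2) * (A * B * k0 s s' t x y -
      2000 * |t| ^ 3 * (A ^ 2 + B ^ 2)) +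
      2500 * |t| ^ 3 * ((1 - s ^ 2) * (1 - s' ^ 2) * (1 - t ^ 2)) *
        ((1 + s * x) * A ^ 2 + (1 + s' * y) * B ^ 2) ≤
      term s s' t x y ((1 + s * y * t) * A) ((1 + s' * x * t) * B) := by
  have hx1 : |x| = 1 := by rcases hx with rfl | rfl <;> simp
  have hy1 : |y| = 1 := by rcases hy with rfl | rfl <;> simp
  have d1 := half_le ht (u := s * y) (by rw [abs_mul, hy1, mul_one]; exact hs)
  have d2 := half_le ht (u := s' * x) (by rw [abs_mul, hx1, mul_one]; exact hs')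
  have d3 := half_le ht (u := x * y) (by rw [abs_mul, hx1, hy1, mul_one])
  rw [mul_comm (x * y)] at d3
  have hs2 : 0 ≤ 1 - s ^ 2 := by rw [← sq_abs, sub_nonneg]; exact pow_le_one₀ (abs_nonneg _) hs
  have hs2' : 0 ≤ 1 - s' ^ 2 := by rw [← sq_abs, sub_nonneg]; exact pow_le_one₀ (abs_nonneg _) hs'
  have ht2 : 0 ≤ 1 - t ^ 2 := by
    rw [← sq_abs, sub_nonneg]; exact pow_le_one₀ (abs_nonneg _) (ht.trans (by norm_num))
  obtain ⟨f6, f6', f6''⟩ := lin_bounds hs hx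
  obtain ⟨f7, f7', f7''⟩ := lin_bounds hs' hy
  have f3 := err_bound (mul_nonneg f6 f7) ((mul_le_mul f6' f7' f7 zero_le_two).trans (by norm_num))
    (ap_g hs hs' ht hx hy) A B
  have f4 : (1 - s' ^ 2) / 2 * (1 / 2) ≤ (1 + s' * y) * (1 + t * (x * y)) :=
    mul_le_mul f7'' d3 (by norm_num) f7
  have f5 : (1 - s ^ 2) / 2 * (1 / 2) ≤ (1 + s * x) * (1 + t * (x * y)) :=
    mul_le_mul f6'' d3 (by norm_num) f6
  have f8 := mul_le_mul_of_nonneg_left f4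
    (by positivity : 0 ≤ 10000 * |t| ^ 3 * (1 - t ^ 2) * (1 + s * x) * ((1 - s ^ 2) * A ^ 2))
  have f9 := mul_le_mul_of_nonneg_left f5
    (by positivity : 0 ≤ 10000 * |t| ^ 3 * (1 - t ^ 2) * (1 + s' * y) * ((1 - s' ^ 2) * B ^ 2))
  have f10 := mul_le_mul_of_nonneg_left f3
    (by positivity : 0 ≤ (1 - s ^ 2) * (1 - s' ^ 2) * (1 - t ^ 2))
  rw [term_eq (by linarith) (by linarith) hx hy, k0]
  generalize (1 - t ^ 2) * (1 + t * (x * y)) * (1 + 2 * t * (cm s t y * cm s' t x)) *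
    (1 + s * y * t)⁻¹ * (1 + s' * x * t)⁻¹ = g at f10 ⊢
  generalize |t| ^ 3 = τ at f8 f9 f10 ⊢
  generalize 1 - t ^ 2 = v3 at f8 f9 f10 ⊢
  generalize 1 - s ^ 2 = v1 at f8 f9 f10 ⊢
  generalize 1 - s' ^ 2 = v2 at f8 f9 f10 ⊢
  generalize x * y + 2 * s * s' - s * y - s' * x = g1 at f10 ⊢
  generalize 1 + s * x = w1 at f8 f9 f10 ⊢
  generalize 1 + s' * y = w2 at f8 f9 f10 ⊢
  generalize 1 + t * (x * y) = w3 at f8 f9 ⊢
  linear_combination f8 + f9 + f10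

/-- The two spin estimate. -/
theorem two_spin {s s' t : ℝ} (hs : |s| ≤ 1) (hs' : |s'| ≤ 1) (ht : |t| ≤ 1 / 100)
    (A B : Bool → ℝ) (hc : A true - A false = B true - B false) :
    0 ≤ ∑ x, ∑ y, term s s' t (spin x) (spin y) (A y) (B x) := by
  have ht' : |t| ≤ 1 / 2 := ht.trans (by norm_num)
  have d1 := half_le ht' hs
  have d2 := half_le ht' (u := -s) (by rwa [abs_neg])
  have d3 := half_le ht' hs'
  have d4 := half_le ht' (u := -s') (by rwa [abs_neg])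
  obtain ⟨P, hP⟩ : ∃ P, P = (A true / (1 + s * t) + A false / (1 + -s * t)) / 2 := ⟨_, rfl⟩
  obtain ⟨Q, hQ⟩ : ∃ Q, Q = (A true / (1 + s * t) - A false / (1 + -s * t)) / 2 := ⟨_, rfl⟩
  obtain ⟨P', hP'⟩ : ∃ P, P = (B true / (1 + s' * t) + B false / (1 + -s' * t)) / 2 := ⟨_, rfl⟩
  obtain ⟨Q', hQ'⟩ : ∃ Q, Q = (B true / (1 + s' * t) - B false / (1 + -s' * t)) / 2 := ⟨_, rfl⟩
  have e1 : A true = (1 + s * 1 * t) * (P + Q) := by
    rw [hP, hQ, mul_one, ← add_div, add_add_sub_cancel, ← two_mul, mul_div_cancel_left₀ _ two_ne_zero,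
      mul_div_cancel₀ _ (by linarith)]
  have e2 : A false = (1 + s * -1 * t) * (P - Q) := by
    rw [hP, hQ, mul_neg_one, ← sub_div, add_sub_sub_cancel, ← two_mul,
      mul_div_cancel_left₀ _ two_ne_zero, mul_div_cancel₀ _ (by linarith)]
  have e3 : B true = (1 + s' * 1 * t) * (P' + Q') := by
    rw [hP', hQ', mul_one, ← add_div, add_add_sub_cancel, ← two_mul,
      mul_div_cancel_left₀ _ two_ne_zero, mul_div_cancel₀ _ (by linarith)]
  have e4 : B false = (1 + s' * -1 * t) * (P' - Q') := by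
    rw [hP', hQ', mul_neg_one, ← sub_div, add_sub_sub_cancel, ← two_mul,
      mul_div_cancel_left₀ _ two_ne_zero, mul_div_cancel₀ _ (by linarith)]
  have a1 := term_ge hs hs' ht' (Or.inl rfl) (Or.inl rfl) (P + Q) (P' + Q')
  have a2 := term_ge hs hs' ht' (Or.inl rfl) (Or.inr rfl) (P - Q) (P' + Q')
  have a3 := term_ge hs hs' ht' (Or.inr rfl) (Or.inl rfl) (P + Q) (P' - Q')
  have a4 := term_ge hs hs' ht' (Or.inr rfl) (Or.inr rfl) (P - Q) (P' - Q')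
  have a5 := k0_sum (P := P) (Q := Q) (P' := P') (Q' := Q') hs hs' ht (by
    rw [e1, e2, e3, e4] at hc
    linarith)
  have hs2 : 0 ≤ 1 - s ^ 2 := by rw [← sq_abs, sub_nonneg]; exact pow_le_one₀ (abs_nonneg _) hs
  have hs2' : 0 ≤ 1 - s' ^ 2 := by rw [← sq_abs, sub_nonneg]; exact pow_le_one₀ (abs_nonneg _) hs'
  have ht2 : 0 ≤ 1 - t ^ 2 := by
    rw [← sq_abs, sub_nonneg]; exact pow_le_one₀ (abs_nonneg _) (ht.trans (by norm_num))
  simp only [Fintype.sum_bool, spin_true, spin_false]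
  rw [e1, e2, e3, e4]
  have hV : 0 ≤ (1 - s ^ 2) * (1 - s' ^ 2) * (1 - t ^ 2) := by positivity
  generalize (1 - s ^ 2) * (1 - s' ^ 2) * (1 - t ^ 2) = V at a1 a2 a3 a4 hV
  have a6 := mul_nonneg hV a5
  have a7 : 0 ≤ V * |t| ^ 3 * (P ^ 2 + P' ^ 2) := by positivity
  have a8 : 0 ≤ V * |t| ^ 3 * (Q ^ 2 + Q' ^ 2) := by positivity
  generalize |t| ^ 3 = τ at *
  linear_combination a1 + a2 + a3 + a4 + a6 + 1840 * a7 + 2000 * a8

end Vale.Agent.P150
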